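import Vale.Agent.P088.H599.J.Defs
import Vale.Agent.P088.H924.Orth

/-!
# P088, theorem J, row U_PU: the push-forward of a metric and a connection
-/

open MeasureTheory Set
open scoped ContDiff Matrix

noncomputable section

namespace Vale.Agent.P088.H292.UP

open Vale.Agent.P088.LR Vale.Agent.P088.LR.H158 Vale.Agent.P088.LR.U

variable {n N : ℕ}

theorem ea_eq (Ω : Set (V n)) (s : MF n) (A : Cn n N) (u v : V n → Fin N → ℂ) :
    ea Ω s A u v = ∫ x in Ω, qf (s x) (fun i => cd A i u x) (fun i => cd A i v x) := rfl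

theorem qf_cont' {s : MF n} (hs : SmM s) {A : Cn n N} (hA : SmU A)
    {u v : V n → Fin N → ℂ} (hu : ContDiff ℝ ∞ u) (hv : ContDiff ℝ ∞ v) :
    Continuous fun x => qf (s x) (fun i => cd A i u x) (fun i => cd A i v x) := by
  unfold qf
  refine continuous_finsetSum _ fun i _ => continuous_finsetSum _ fun j _ => ?_
  refine (Complex.continuous_ofReal.comp (hs i j).continuous).mul ?_
  simp only [dotProduct, Pi.star_apply]
  refine continuous_finsetSum _ fun b _ => ?_
  exact ((continuous_pi_iff.1 (contDiff_cd hA hu i).continuous) b).mul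
    (continuous_star.comp ((continuous_pi_iff.1 (contDiff_cd hA hv j).continuous) b))

section form

variable {Ω : Set (V n)} (hb : Bornology.IsBounded Ω) {s : MF n} (hs : SmM s)
  {A : Cn n N} (hA : SmU A)

include hb hs hA

theorem ea_sub_right {u v v' : V n → Fin N → ℂ} (hu : ContDiff ℝ ∞ u) (hv : ContDiff ℝ ∞ v)
    (hv' : ContDiff ℝ ∞ v') :
    ea Ω s A u (fun x => v x - v' x) = ea Ω s A u v - ea Ω s A u v' := by
  rw [ea_eq, ea_eq, ea_eq, ← integral_sub (intOn hb (qf_cont' hs hA hu hv))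
    (intOn hb (qf_cont' hs hA hu hv'))]
  congr 1
  funext x
  unfold qf
  rw [← Finset.sum_sub_distrib]
  refine Finset.sum_congr rfl fun i _ => ?_
  rw [← Finset.sum_sub_distrib]
  refine Finset.sum_congr rfl fun j _ => ?_
  show (s x i j : ℂ) * (cd A i u x ⬝ᵥ star (cd A j (fun x => v x - v' x) x)) =
    (s x i j : ℂ) * (cd A i u x ⬝ᵥ star (cd A j v x)) -
      (s x i j : ℂ) * (cd A i u x ⬝ᵥ star (cd A j v' x))
  rw [cd_sub A hv hv', star_sub, dotProduct_sub, mul_sub]

theorem ea_sub_left {u u' v : V n → Fin N → ℂ} (hu : ContDiff ℝ ∞ u) (hu' : ContDiff ℝ ∞ u')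
    (hv : ContDiff ℝ ∞ v) :
    ea Ω s A (fun x => u x - u' x) v = ea Ω s A u v - ea Ω s A u' v := by
  rw [ea_eq, ea_eq, ea_eq, ← integral_sub (intOn hb (qf_cont' hs hA hu hv))
    (intOn hb (qf_cont' hs hA hu' hv))]
  congr 1
  funext x
  unfold qf
  rw [← Finset.sum_sub_distrib]
  refine Finset.sum_congr rfl fun i _ => ?_
  rw [← Finset.sum_sub_distrib]
  refine Finset.sum_congr rfl fun j _ => ?_
  show (s x i j : ℂ) * (cd A i (fun x => u x - u' x) x ⬝ᵥ star (cd A j v x)) =
    (s x i j : ℂ) * (cd A i u x ⬝ᵥ star (cd A j v x)) -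
      (s x i j : ℂ) * (cd A i u' x ⬝ᵥ star (cd A j v x))
  rw [cd_sub A hu hu', sub_dotProduct, mul_sub]

/-- **Green formula**, test section zero on the frontier. -/
theorem ea_LA (hΩ : IsOpen Ω) (hsym : ∀ x, (s x).IsSymm) {u φ : V n → Fin N → ℂ}
    (hu : ContDiff ℝ ∞ u) (hφ : ContDiff ℝ ∞ φ) (h0 : ∀ x ∈ frontier Ω, φ x = 0) :
    ea Ω s A u φ = -∫ x in Ω, lav s A u x ⬝ᵥ star (φ x) := by
  have hGb : ∀ j b, ContDiff ℝ ∞ fun y => H924.Gf s A u j y b := fun j b =>
    (contDiff_pi.1 (H924.contDiff_Gf hs hA hu j)) b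
  have hψ : ∀ b, ContDiff ℝ ∞ fun y => star (φ y b) := fun b =>
    contDiff_star ((contDiff_pi.1 hφ) b)
  have hW : ∀ b, ∫ x in Ω, ∑ j, H924.Gf s A u j x b * pd j (fun y => star (φ y b)) x =
      -∫ x in Ω, (∑ j, pd j (fun y => H924.Gf s A u j y b) x) * star (φ x b) := fun b =>
    H924.weak_flux hΩ hb (fun j => hGb j b) (hψ b) fun x hx => by
      rw [h0 x hx]
      simp
  have c1 : ∀ b, Continuous fun x => ∑ j, H924.Gf s A u j x b * pd j (fun y => star (φ y b)) x :=
    fun b => continuous_finsetSum _ fun j _ => (hGb j b).continuous.mul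
      (H158.contDiff_pd (hψ b) j).continuous
  have c2 : ∀ b, Continuous fun x =>
      (∑ j, pd j (fun y => H924.Gf s A u j y b) x) * star (φ x b) := fun b =>
    (continuous_finsetSum _ fun j _ => (H158.contDiff_pd (hGb j b) j).continuous).mul
      (hψ b).continuous
  have c3 : Continuous fun x => (∑ j, A j x *ᵥ H924.Gf s A u j x) ⬝ᵥ star (φ x) := by
    have h3 : ContDiff ℝ ∞ fun x => ∑ j, A j x *ᵥ H924.Gf s A u j x :=
      ContDiff.sum fun j _ => contDiff_mulVec (hA.1 j) (H924.contDiff_Gf hs hA hu j)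
    unfold dotProduct
    exact continuous_finsetSum _ fun b _ => ((continuous_pi_iff.1 h3.continuous) b).mul
      (hψ b).continuous
  have e1 : ea Ω s A u φ = (∑ b, ∫ x in Ω, ∑ j, H924.Gf s A u j x b *
      pd j (fun y => star (φ y b)) x) -
        ∫ x in Ω, (∑ j, A j x *ᵥ H924.Gf s A u j x) ⬝ᵥ star (φ x) := by
    rw [ea_eq]
    simp only [H924.qf_flux hsym hA hφ]
    rw [integral_sub (intOn hb (continuous_finsetSum _ fun b _ => c1 b)) (intOn hb c3),
      integral_finsetSum _ fun b _ => intOn hb (c1 b)]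
  have e2 : ∫ x in Ω, lav s A u x ⬝ᵥ star (φ x) =
      (∑ b, ∫ x in Ω, (∑ j, pd j (fun y => H924.Gf s A u j y b) x) * star (φ x b)) +
        ∫ x in Ω, (∑ j, A j x *ᵥ H924.Gf s A u j x) ⬝ᵥ star (φ x) := by
    have h1 : ∀ x, lav s A u x ⬝ᵥ star (φ x) =
      (∑ b, (∑ j, pd j (fun y => H924.Gf s A u j y b) x) * star (φ x b)) +
        (∑ j, A j x *ᵥ H924.Gf s A u j x) ⬝ᵥ star (φ x) := fun x => H924.LA_flux hs hA hu x
    simp only [h1]
    rw [integral_add (intOn hb (continuous_finsetSum _ fun b _ => c2 b)) (intOn hb c3),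
      integral_finsetSum _ fun b _ => intOn hb (c2 b)]
  rw [e1, e2, Finset.sum_congr rfl fun b _ => hW b, Finset.sum_neg_distrib]
  ring

end form

/-- Hermitian symmetry. -/
theorem ea_star (Ω : Set (V n)) {s : MF n} (hsym : ∀ x, (s x).IsSymm) (A : Cn n N)
    (u v : V n → Fin N → ℂ) : ea Ω s A u v = star (ea Ω s A v u) := by
  rw [ea_eq, ea_eq]
  have h1 := integral_conj (μ := (volume : Measure (V n)).restrict Ω)
    (f := fun x => qf (s x) (fun i => cd A i v x) (fun i => cd A i u x))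
  refine Eq.trans ?_ h1
  congr 1
  funext x
  unfold qf
  rw [map_sum, Finset.sum_comm]
  refine Finset.sum_congr rfl fun j _ => ?_
  rw [map_sum]
  refine Finset.sum_congr rfl fun i _ => ?_
  rw [map_mul, Complex.conj_ofReal, (hsym x).apply j i]
  congr 1
  unfold dotProduct
  rw [map_sum]
  refine Finset.sum_congr rfl fun b _ => ?_
  simp [mul_comm]

section weak

variable {Ω : Set (V n)} (hΩ : IsOpen Ω) (hb : Bornology.IsBounded Ω) {s : MF n} (hs : SmM s)
  (hsym : ∀ x, (s x).IsSymm) {A : Cn n N} (hA : SmU A)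

include hΩ hb hs hsym hA

theorem wk1 {u φ : V n → Fin N → ℂ} (hu : ContDiff ℝ ∞ u) (hφ : ContDiff ℝ ∞ φ)
    (h : ∀ x ∈ Ω, lav s A u x = 0) (h0 : ∀ x ∈ frontier Ω, φ x = 0) : ea Ω s A u φ = 0 := by
  rw [ea_LA hb hs hA hΩ hsym hu hφ h0, setIntegral_congr_fun (g := fun _ => (0 : ℂ))
    hΩ.measurableSet]
  · simp
  · intro x hx
    simp only [h x hx, zero_dotProduct]

theorem wk2 {u φ : V n → Fin N → ℂ} (hu : ContDiff ℝ ∞ u) (hφ : ContDiff ℝ ∞ φ)
    (h : ∀ x ∈ Ω, lav s A u x = 0) (h0 : ∀ x ∈ frontier Ω, φ x = 0) : ea Ω s A φ u = 0 := by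
  rw [ea_star Ω hsym, wk1 hΩ hb hs hsym hA hu hφ h h0, star_zero]

theorem contDiff_lav {u : V n → Fin N → ℂ} (hu : ContDiff ℝ ∞ u) : ContDiff ℝ ∞ (lav s A u) :=
  ContDiff.sum fun i _ => contDiff_cd hA (H924.contDiff_Gf hs hA hu i) i

/-- the weak equation implies the pointwise equation -/
theorem lav_of_weak {u : V n → Fin N → ℂ} (hu : ContDiff ℝ ∞ u)
    (h : ∀ φ : V n → Fin N → ℂ, ContDiff ℝ ∞ φ → (∀ x ∉ Ω, φ x = 0) → ea Ω s A u φ = 0) :
    ∀ x ∈ Ω, lav s A u x = 0 := by
  have hc : Continuous (lav s A u) := (contDiff_lav hΩ hb hs hsym hA hu).continuous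
  have hcb : ∀ b, Continuous fun x => lav s A u x b := fun b => (continuous_pi_iff.1 hc) b
  have key : ∀ b, ∀ x ∈ Ω, lav s A u x b = 0 := by
    intro b
    have hae : ∀ᵐ x : V n, x ∈ Ω → lav s A u x b = 0 := by
      refine hΩ.ae_eq_zero_of_integral_contDiff_smul_eq_zero
        ((hcb b).locallyIntegrable.locallyIntegrableOn _) ?_
      intro g hg hgc hgs
      have hg0 : ∀ x ∉ Ω, g x = 0 := by
        intro x hx
        have : x ∉ tsupport g := fun hc => hx (hgs hc)
        exact image_eq_zero_of_notMem_tsupport this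
      set φ : V n → Fin N → ℂ := fun x c => if c = b then ((g x : ℝ) : ℂ) else 0 with hφ
      have hφs : ContDiff ℝ ∞ φ := by
        rw [contDiff_pi]
        intro c
        simp only [hφ]
        split_ifs
        · exact Complex.ofRealCLM.contDiff.comp hg
        · exact contDiff_const
      have hφ0 : ∀ x ∉ Ω, φ x = 0 := by
        intro x hx
        funext c
        simp only [hφ, hg0 x hx]
        split_ifs <;> simp
      have h1 := ea_LA hb hs hA hΩ hsym hu hφs fun x hx => hφ0 x fun hx' =>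
        (hΩ.frontier_eq ▸ hx).2 hx'
      rw [h φ hφs hφ0] at h1
      have h2 : ∫ x in Ω, lav s A u x ⬝ᵥ star (φ x) = 0 := by
        rw [← neg_eq_zero, ← h1]
      have h3 : ∀ x, lav s A u x ⬝ᵥ star (φ x) = g x • lav s A u x b := by
        intro x
        simp only [dotProduct, Pi.star_apply, hφ]
        rw [Finset.sum_eq_single b]
        · simp only [if_true]
          rw [Complex.real_smul, mul_comm]
          congr 1
          exact Complex.conj_ofReal _
        · intro c _ hc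
          rw [if_neg hc, star_zero, mul_zero]
        · intro hc
          exact absurd (Finset.mem_univ b) hc
      simp only [h3] at h2
      rw [← h2]
      symm
      apply setIntegral_eq_integral_of_forall_compl_eq_zero
      intro x hx
      rw [hg0 x hx, zero_smul]
    have hae2 : (fun x => lav s A u x b) =ᵐ[volume.restrict Ω] fun _ => 0 := by
      rw [Filter.EventuallyEq, ae_restrict_iff' hΩ.measurableSet]
      exact hae
    exact Measure.eqOn_open_of_ae_eq hae2 hΩ (hcb b).continuousOn continuousOn_const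
  intro x hx
  funext b
  exact key b x hx

end weak

/-! ### change of variables -/

theorem qf_alg (J s : Matrix (Fin n) (Fin n) ℝ) (p q : Fin n → Fin N → ℂ) :
    qf (J * s * Jᵀ) p q =
      qf s (fun a => ∑ i, (J i a : ℂ) • p i) (fun b => ∑ j, (J j b : ℂ) • q j) := by
  have h0 : ∀ (M : Matrix (Fin n) (Fin n) ℝ) (p q : Fin n → Fin N → ℂ), qf M p q =
      ∑ c, ∑ i, ∑ j, (M i j : ℂ) * p i c * star (q j c) := by
    intro M p q
    unfold qf
    have e : ∀ i j, (M i j : ℂ) * (p i ⬝ᵥ star (q j)) =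
        ∑ c, (M i j : ℂ) * p i c * star (q j c) := by
      intro i j
      rw [dotProduct, Finset.mul_sum]
      refine Finset.sum_congr rfl fun c _ => ?_
      rw [mul_assoc]
      rfl
    simp only [e]
    have e2 : ∀ i, ∑ j, ∑ c, (M i j : ℂ) * p i c * star (q j c) =
        ∑ c, ∑ j, (M i j : ℂ) * p i c * star (q j c) := fun i => Finset.sum_comm
    simp only [e2]
    exact Finset.sum_comm
  rw [h0, h0]
  refine Finset.sum_congr rfl fun c _ => ?_
  rw [alg_id]
  refine Finset.sum_congr rfl fun a _ => Finset.sum_congr rfl fun b _ => ?_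
  congr 1
  · congr 1
    rw [Finset.sum_apply]
    rfl
  · rw [Finset.sum_apply, star_sum]
    refine Finset.sum_congr rfl fun j _ => ?_
    rw [Pi.smul_apply, smul_eq_mul, star_mul', Complex.star_def, Complex.conj_ofReal]

theorem qf_smul (r : ℝ) (s : Matrix (Fin n) (Fin n) ℝ) (p q : Fin n → Fin N → ℂ) :
    qf (r • s) p q = (r : ℂ) * qf s p q := by
  unfold qf
  rw [Finset.mul_sum]
  refine Finset.sum_congr rfl fun i _ => ?_
  rw [Finset.mul_sum]
  refine Finset.sum_congr rfl fun j _ => ?_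
  rw [Matrix.smul_apply, smul_eq_mul]
  push_cast
  ring

section dif

variable {Ω : Set (V n)} {w K : V n → V n} (D : Dif Ω w K)

include D

theorem pd_K (i j : Fin n) (y : V n) :
    pd i (fun y => ((K y j : ℝ) : ℂ)) y = ((pd i K y j : ℝ) : ℂ) := by
  have hK : DifferentiableAt ℝ K y := D.sK.differentiable (by simp) y
  exact pd_clm (Complex.ofRealCLM.comp (ContinuousLinearMap.proj (R := ℝ)
    (φ := fun _ : Fin n => ℝ) j)) hK i

theorem chain_K (x : V n) (a j : Fin n) :
    ∑ i, (jm w x i a : ℂ) * ((pd i K (x + w x) j : ℝ) : ℂ) = if j = a then 1 else 0 := by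
  have hKj : ContDiff ℝ ∞ fun y => ((K y j : ℝ) : ℂ) :=
    Complex.ofRealCLM.contDiff.comp ((contDiff_pi.1 D.sK) j)
  have h1 := pd_comp D.sw (u := fun y => ((K y j : ℝ) : ℂ)) (x := x)
    (hKj.differentiable (by simp) _) a
  simp only [pd_K D] at h1
  rw [← h1]
  have h2 : (fun x => ((K (x + w x) j : ℝ) : ℂ)) = fun x : V n => ((x j : ℝ) : ℂ) := by
    funext x
    rw [D.l]
  rw [h2, pd_coord]
  by_cases h : a = j
  · simp [h]
  · rw [if_neg h, if_neg fun h' => h h'.symm]

theorem cd_push (A : Cn n N) {u : V n → Fin N → ℂ} (hu : ContDiff ℝ ∞ u) (x : V n) (a : Fin n) :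
    cd A a (fun x => u (x + w x)) x =
      ∑ i, (jm w x i a : ℂ) • cd (pfo A K) i u (x + w x) := by
  have hH : ContDiff ℝ ∞ fun x => x + w x := contDiff_id.add D.sw
  have h1 : pd a (fun x => u (x + w x)) x = ∑ i, (jm w x i a : ℂ) • pd i u (x + w x) := by
    funext b
    have huH : ContDiff ℝ ∞ fun x => u (x + w x) := hu.comp hH
    rw [pd_pi (dfa huH x) a b, Finset.sum_apply]
    have h2 := pd_comp D.sw (u := fun y => u y b) (x := x)
      (((contDiff_pi.1 hu) b).differentiable (by simp) _) a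
    refine h2.trans (Finset.sum_congr rfl fun i _ => ?_)
    rw [Pi.smul_apply, smul_eq_mul, pd_pi (dfa hu (x + w x)) i b]
  have h3 : A a x *ᵥ u (x + w x) =
      ∑ i, (jm w x i a : ℂ) • (pfo A K i (x + w x) *ᵥ u (x + w x)) := by
    have h4 : ∀ i, pfo A K i (x + w x) *ᵥ u (x + w x) =
        ∑ j, ((pd i K (x + w x) j : ℝ) : ℂ) • (A j x *ᵥ u (x + w x)) := by
      intro i
      unfold pfo
      rw [D.l, Matrix.sum_mulVec]
      exact Finset.sum_congr rfl fun j _ => Matrix.smul_mulVec _ _ _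
    simp only [h4, Finset.smul_sum, smul_smul]
    rw [Finset.sum_comm]
    simp only [← Finset.sum_smul, chain_K D x a]
    simp
  unfold cd
  rw [h1, h3, ← Finset.sum_add_distrib]
  refine Finset.sum_congr rfl fun i _ => ?_
  rw [smul_add]

/-- **change of variables** -/
theorem ea_push (hΩ : IsOpen Ω) (s : MF n) (A : Cn n N) {u v : V n → Fin N → ℂ}
    (hu : ContDiff ℝ ∞ u) (hv : ContDiff ℝ ∞ v) :
    ea Ω (psh s w K) (pfo A K) u v =
      ea Ω s A (fun x => u (x + w x)) (fun x => v (x + w x)) := by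
  rw [ea_eq, ea_eq]
  have h1 := integral_image_eq_integral_abs_det_fderiv_smul (volume : Measure (V n))
    hΩ.measurableSet (f := fun x => x + w x)
    (f' := fun x => ContinuousLinearMap.id ℝ (V n) + fderiv ℝ w x)
    (fun x _ => (hasFDerivAt_H D.sw x).hasFDerivWithinAt) ((H_inj D).injOn)
    (fun y => qf (psh s w K y) (fun i => cd (pfo A K) i u y) (fun i => cd (pfo A K) i v y))
  rw [H_image D] at h1
  rw [h1]
  refine setIntegral_congr_fun hΩ.measurableSet fun x _ => ?_
  show |(ContinuousLinearMap.id ℝ (V n) + fderiv ℝ w x).det| •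
    qf (psh s w K (x + w x)) (fun i => cd (pfo A K) i u (x + w x))
      (fun i => cd (pfo A K) i v (x + w x)) =
    qf (s x) (fun i => cd A i (fun x => u (x + w x)) x) (fun i => cd A i (fun x => v (x + w x)) x)
  rw [det_H, abs_of_pos (D.dp x)]
  have e1 : psh s w K (x + w x) = (jm w x).det⁻¹ • (jm w x * s x * (jm w x)ᵀ) := by
    unfold psh
    rw [D.l]
  have hd : ((jm w x).det : ℂ) ≠ 0 := by
    exact_mod_cast (D.dp x).ne'
  rw [e1, qf_smul, Complex.real_smul, Complex.ofReal_inv, ← mul_assoc, mul_inv_cancel₀ hd,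
    one_mul, qf_alg]
  congr 1
  · funext a
    exact (cd_push D A hu x a).symm
  · funext a
    exact (cd_push D A hv x a).symm

theorem smU_pfo {A : Cn n N} (hA : SmU A) : SmU (pfo A K) := by
  refine ⟨fun i a b => ?_, fun i y => ?_⟩
  · have h1 : (fun x => pfo A K i x a b) =
        fun x => ∑ j, ((pd i K x j : ℝ) : ℂ) * A j (K x) a b := by
      funext x
      unfold pfo
      rw [Matrix.sum_apply]
      rfl
    rw [h1]
    refine ContDiff.sum fun j _ => ?_
    have h2 : ContDiff ℝ ∞ fun x => pd i K x j := (contDiff_pi.1 (H158.contDiff_pd D.sK i)) j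
    exact (Complex.ofRealCLM.contDiff.comp h2).mul ((hA.1 j a b).comp D.sK)
  · unfold pfo
    rw [Matrix.conjTranspose_sum, ← Finset.sum_neg_distrib]
    refine Finset.sum_congr rfl fun j _ => ?_
    rw [Matrix.conjTranspose_smul, hA.2, smul_neg, Complex.star_def, Complex.conj_ofReal]

theorem pfo_off (hi : interior (closure Ω) = Ω) (A : Cn n N) (i : Fin n) {x : V n}
    (hx : x ∉ Ω) : pfo A K i x = A i x := by
  have h0 : ∀ y ∉ Ω, K y - y = 0 := fun y hy => by rw [K_off D hy, sub_self]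
  have h1 : fderiv ℝ (fun y => K y - y) x = 0 :=
    fderiv_zero_off hi (D.sK.sub contDiff_id) h0 hx
  have h2 : ∀ j, pd i K x j = if j = i then 1 else 0 := by
    intro j
    have h3 : fderiv ℝ (fun y => K y - y) x = fderiv ℝ K x - ContinuousLinearMap.id ℝ (V n) :=
      ((D.sK.differentiable (by simp) x).hasFDerivAt.sub (hasFDerivAt_id x)).fderiv
    rw [h1] at h3
    have h4 : fderiv ℝ K x = ContinuousLinearMap.id ℝ (V n) := (sub_eq_zero.1 h3.symm)
    unfold pd
    rw [h4]
    simp [Pi.single_apply]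
  unfold pfo
  rw [K_off D hx]
  simp only [h2]
  rw [Finset.sum_eq_single i]
  · simp
  · intro j _ hj
    rw [if_neg hj]
    simp
  · intro hc
    exact absurd (Finset.mem_univ i) hc

theorem psh_off' (hi : interior (closure Ω) = Ω) (s : MF n) {x : V n} (hx : x ∉ Ω) :
    psh s w K x = s x := by
  unfold psh
  rw [K_off D hx, jm_off D hi hx]
  simp

section sol

variable (hΩ : IsOpen Ω) (hb : Bornology.IsBounded Ω) {s : MF n} (hs : SmM s)
  (hsym : ∀ x, (s x).IsSymm) {A : Cn n N} (hA : SmU A)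

include hΩ hb hs hsym hA

/-- solutions are pushed forward -/
theorem lav_push {u : V n → Fin N → ℂ} (hu : ContDiff ℝ ∞ u) (h : ∀ x ∈ Ω, lav s A u x = 0) :
    ∀ x ∈ Ω, lav (psh s w K) (pfo A K) (fun y => u (K y)) x = 0 := by
  have hH : ContDiff ℝ ∞ fun x => x + w x := contDiff_id.add D.sw
  have huK : ContDiff ℝ ∞ fun y => u (K y) := hu.comp D.sK
  refine lav_of_weak hΩ hb (smM_psh D hs) (isSymm_psh D hsym) (smU_pfo D hA) huK ?_
  intro φ hφ hφ0
  rw [ea_push D hΩ s A huK hφ]
  simp only [D.l]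
  refine wk1 hΩ hb hs hsym hA hu (hφ.comp hH) h fun x hx => ?_
  have hx' : x ∉ Ω := frontier_off D hΩ hx
  show φ (x + w x) = 0
  rw [D.z x hx', add_zero]
  exact hφ0 x hx'

/-- solutions are pulled back -/
theorem lav_pull {v : V n → Fin N → ℂ} (hv : ContDiff ℝ ∞ v)
    (h : ∀ x ∈ Ω, lav (psh s w K) (pfo A K) v x = 0) :
    ∀ x ∈ Ω, lav s A (fun x => v (x + w x)) x = 0 := by
  have hH : ContDiff ℝ ∞ fun x => x + w x := contDiff_id.add D.sw
  refine lav_of_weak hΩ hb hs hsym hA (hv.comp hH) ?_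
  intro φ hφ hφ0
  have hφK : ContDiff ℝ ∞ fun y => φ (K y) := hφ.comp D.sK
  have h1 := ea_push D hΩ s A hv hφK
  have h2 : (fun x => φ (K (x + w x))) = φ := by
    funext x
    rw [D.l]
  have h3 : ea Ω s A (fun x => v (x + w x)) φ = ea Ω (psh s w K) (pfo A K) v fun y => φ (K y) := by
    rw [h1]
    simp only [h2]
  rw [h3]
  refine wk1 hΩ hb (smM_psh D hs) (isSymm_psh D hsym) (smU_pfo D hA) hv hφK h fun x hx => ?_
  have hx' : x ∉ Ω := frontier_off D hΩ hx
  show φ (K x) = 0
  rw [K_off D hx']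
  exact hφ0 x hx'

end sol

end dif

/-! ### columns -/

theorem cdC_col {A : Cn n N} {U : MC n N} (hU : SmC U) (i : Fin n) (x : V n) (a b : Fin N) :
    cdC A i U x a b = cd A i (fun y c => U y c b) x a := by
  have hc : ContDiff ℝ ∞ fun (y : V n) (c : Fin N) => U y c b := contDiff_pi.2 fun c => hU c b
  unfold cdC cd
  rw [Matrix.add_apply, Pi.add_apply, pd_pi (dfa hc x) i a]
  rfl

theorem smC_cdC {A : Cn n N} (hA : SmU A) {U : MC n N} (hU : SmC U) (i : Fin n) :
    SmC (cdC A i U) := by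
  intro a b
  have hc : ContDiff ℝ ∞ fun (y : V n) (c : Fin N) => U y c b := contDiff_pi.2 fun c => hU c b
  simp only [cdC_col hU]
  exact (contDiff_pi.1 (contDiff_cd hA hc i)) a

theorem smC_flC {s : MF n} (hs : SmM s) {A : Cn n N} (hA : SmU A) {U : MC n N} (hU : SmC U)
    (i : Fin n) : SmC (flC s A U i) := by
  intro a b
  have h1 : (fun x => flC s A U i x a b) = fun x => ∑ j, (s x i j : ℂ) * cdC A j U x a b := by
    funext x
    unfold flC
    rw [Matrix.sum_apply]
    rfl
  rw [h1]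
  exact ContDiff.sum fun j _ => (Complex.ofRealCLM.contDiff.comp (hs i j)).mul
    (smC_cdC hA hU j a b)

theorem LaC_col {s : MF n} (hs : SmM s) {A : Cn n N} (hA : SmU A) {U : MC n N} (hU : SmC U)
    (x : V n) (a b : Fin N) : LaC s A U x a b = lav s A (fun y c => U y c b) x a := by
  unfold LaC lav
  rw [Matrix.sum_apply, Finset.sum_apply]
  refine Finset.sum_congr rfl fun i _ => ?_
  rw [cdC_col (smC_flC hs hA hU i)]
  have h1 : (fun (y : V n) (c : Fin N) => flC s A U i y c b) =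
      fun y => ∑ j, (s y i j : ℂ) • cd A j (fun y c => U y c b) y := by
    funext y c
    unfold flC
    rw [Matrix.sum_apply, Finset.sum_apply]
    refine Finset.sum_congr rfl fun j _ => ?_
    rw [Matrix.smul_apply, Pi.smul_apply, cdC_col hU]
  rw [h1]

theorem core_bounded : Bornology.IsBounded (core n) := by
  have h : core n = Set.Icc (fun _ => 1 / 4) (fun _ => 3 / 4) := by
    ext x
    simp only [core, Set.mem_ofPred_eq, Set.mem_Icc, Pi.le_def]
    exact ⟨fun h => ⟨fun j => (h j).1, fun j => (h j).2⟩, fun h j => ⟨h.1 j, h.2 j⟩⟩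
  rw [h]
  exact Metric.isBounded_Icc _ _

/-- **Row U_PU.** -/
theorem puu : RowPUU := by
  intro n N Ω hΩ hsub hi s₁ s₂ hs1 hs2 hsym1 hsym2 hoff A₁ A₂ hA1 hA2 hAoff w K D
  have hb : Bornology.IsBounded Ω := core_bounded.subset hsub
  have hH : ContDiff ℝ ∞ fun x => x + w x := contDiff_id.add D.sw
  refine ⟨smM_psh D hs2, isSymm_psh D hsym2, fun x hx => ?_, smU_pfo D hA2, fun i x hx => ?_,
    ?_, ?_⟩
  · rw [psh_off' D hi s₂ hx, hoff x hx]
  · rw [pfo_off D hi A₂ i hx, hAoff i x hx]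
  · intro hO u v hu hv hu0 hv0
    have hv' : ContDiff ℝ ∞ fun x => v (x + w x) := hv.comp hH
    have hu' : ContDiff ℝ ∞ fun x => u (x + w x) := hu.comp hH
    have hvs : ∀ x ∈ Ω, lav s₂ A₂ (fun x => v (x + w x)) x = 0 :=
      lav_pull D hΩ hb hs2 hsym2 hA2 hv hv0
    have e1 := ea_push D hΩ s₂ A₂ hu hv
    have hz : ∀ {f : V n → Fin N → ℂ}, ∀ x ∈ frontier Ω, f (x + w x) - f x = 0 := by
      intro f x hx
      rw [D.z x (frontier_off D hΩ hx), add_zero, sub_self]
    have e2 : ea Ω s₂ A₂ (fun x => u (x + w x)) (fun x => v (x + w x)) =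
        ea Ω s₂ A₂ u (fun x => v (x + w x)) := by
      have h1 := wk2 hΩ hb hs2 hsym2 hA2 (φ := fun x => u (x + w x) - u x) hv' (hu'.sub hu) hvs hz
      rw [ea_sub_left hb hs2 hA2 hu' hu hv'] at h1
      exact sub_eq_zero.1 h1
    have e3 : ea Ω s₁ A₁ u (fun x => v (x + w x)) = ea Ω s₂ A₂ u (fun x => v (x + w x)) :=
      hO u _ hu hv' hu0 hvs
    have e4 : ea Ω s₁ A₁ u (fun x => v (x + w x)) = ea Ω s₁ A₁ u v := by
      have h1 := wk1 hΩ hb hs1 hsym1 hA1 (φ := fun x => v (x + w x) - v x) hu (hv'.sub hv) hu0 hz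
      rw [ea_sub_right hb hs1 hA1 hu hv' hv] at h1
      exact sub_eq_zero.1 h1
    rw [e1, e2, ← e3, e4]
  · intro U hU
    have hUK : SmC fun y => U (K y) := fun a b => (hU a b).comp D.sK
    refine ⟨hUK, fun h x hx => ?_⟩
    ext a b
    rw [LaC_col (smM_psh D hs2) (smU_pfo D hA2) hUK]
    have hc : ContDiff ℝ ∞ fun (y : V n) (c : Fin N) => U y c b := contDiff_pi.2 fun c => hU c b
    have h1 : ∀ x ∈ Ω, lav s₂ A₂ (fun y c => U y c b) x = 0 := by
      intro x hx
      funext a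
      rw [← LaC_col hs2 hA2 hU, h x hx]
      rfl
    have h2 := lav_push D hΩ hb hs2 hsym2 hA2 hc h1 x hx
    have h3 := congrFun h2 a
    exact h3

end Vale.Agent.P088.H292.UP
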