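import Vale.Agent.P088.H393.UEsfD

/-!
# P088, stage J, row ESFU: smoothness and supports of the coefficients
-/

open MeasureTheory Set
open scoped ContDiff Matrix

noncomputable section

namespace Vale.Agent.P088.H292.ES

open Vale.Agent.P088.LR Vale.Agent.P088.LR.CF Vale.Agent.P088.LR.U Vale.Agent.P088.LR.H158
  Vale.Agent.P088.LR.U.H393

variable {n N : ℕ}

theorem sm_mul {P Q : MC n N} (hP : SmC P) (hQ : SmC Q) : SmC fun x => P x * Q x := by
  intro a b
  simp only [Matrix.mul_apply]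
  exact ContDiff.sum fun c _ => (hP a c).mul (hQ c b)

theorem sm_add {P Q : MC n N} (hP : SmC P) (hQ : SmC Q) : SmC fun x => P x + Q x :=
  fun a b => (hP a b).add (hQ a b)

theorem sm_sub {P Q : MC n N} (hP : SmC P) (hQ : SmC Q) : SmC fun x => P x - Q x :=
  fun a b => (hP a b).sub (hQ a b)

theorem sm_sum {ι : Type*} (s : Finset ι) {P : ι → MC n N} (hP : ∀ i, SmC (P i)) :
    SmC fun x => ∑ i ∈ s, P i x := by
  intro a b
  simp only [Matrix.sum_apply]
  exact ContDiff.sum fun i _ => hP i a b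

theorem sm_pdm {P : MC n N} (hP : SmC P) (i : Fin n) : SmC (pdm i P) := by
  intro a b
  have hfd : ContDiff ℝ ∞ (fderiv ℝ fun y => P y a b) := (hP a b).fderiv_right (by simp)
  exact hfd.clm_apply contDiff_const

theorem ssm : RowSsm := by
  intro n N Ω τ τi κ h q hB χ hχ hχ0 hΩ
  have hc : ContDiff ℝ ∞ fun x => (χ x : ℂ) := Complex.ofRealCLM.contDiff.comp hχ
  have hPU : ∀ j, SmC (PU τ τi κ j) := fun j => sm_mul hB.si (sm_add (sm_pdm hB.sτ j) (hB.sκ j))
  have hPW : ∀ j, SmC (PW τ τi κ j) := fun j => sm_mul (sm_sub (sm_pdm hB.sτ j) (hB.sκ j)) hB.si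
  have h0 : ∀ i j, ∀ x ∉ core n, h i j x = 0 := fun i j x hx => hB.h0 i j x fun h' => hx (hΩ h')
  have q0 : ∀ i, ∀ x ∉ core n, q i x = 0 := fun i x hx => hB.q0 i x fun h' => hx (hΩ h')
  have hL0 : ∀ j a b, ContDiff ℝ ∞ (LW0 χ τ τi κ j a b) := fun j a b => hc.mul (hPW j b a)
  refine ⟨fun j a b => hc.mul (hPU j a b), hL0,
    fun i j a b => sm_mul (hB.sh j i) hB.si b a, fun j a b => ?_, fun j a b x hx => ?_,
    fun j a b x hx => ?_, fun i j a b x hx => ?_, fun j a b x hx => ?_⟩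
  · refine (hL0 j a b).add ?_
    exact sm_mul (sm_sub (sm_sum _ fun i => sm_mul (sm_mul (hB.sh j i) hB.si)
      (sm_pdm hB.sτ i)) (hB.sq j)) hB.si b a
  · show (χ x : ℂ) * _ = 0
    rw [hχ0 x hx, Complex.ofReal_zero, zero_mul]
  · show (χ x : ℂ) * _ = 0
    rw [hχ0 x hx, Complex.ofReal_zero, zero_mul]
  · show (h j i x * τi x) b a = 0
    rw [h0 j i x hx, Matrix.zero_mul]
    rfl
  · show (χ x : ℂ) * _ + (((∑ i, h j i x * τi x * pdm i τ x) - q j x) * τi x) b a = 0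
    have h1 : ∑ i, h j i x * τi x * pdm i τ x = 0 :=
      Finset.sum_eq_zero fun i _ => by rw [h0 j i x hx, Matrix.zero_mul, Matrix.zero_mul]
    rw [hχ0 x hx, Complex.ofReal_zero, zero_mul, zero_add, h1, q0 j x hx, sub_zero,
      Matrix.zero_mul]
    rfl

end Vale.Agent.P088.H292.ES
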