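import Vale.Agent.P088.H442.Defs3
import Vale.Agent.P088.H833.Phi

/-!
# P088, Theorem CF, row PUSH: the push-forward for two tensors
-/

open MeasureTheory Set
open scoped ContDiff Matrix

noncomputable section

namespace Vale.Agent.P088.H292

open Vale.Agent.P088.LR Vale.Agent.P088.LR.CF Vale.Agent.P088.H833

variable {n : ℕ}

theorem core_bounded : Bornology.IsBounded (core n) := by
  have h : core n = Set.Icc (fun _ => 1 / 4) (fun _ => 3 / 4) := by
    ext x
    simp only [core, Set.mem_ofPred_eq, Set.mem_Icc, Pi.le_def]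
    exact ⟨fun h => ⟨fun j => (h j).1, fun j => (h j).2⟩, fun h j => ⟨h.1 j, h.2 j⟩⟩
  rw [h]
  exact Metric.isBounded_Icc _ _

theorem psh_off' {Ω : Set (V n)} {w K : V n → V n} (D : Dif Ω w K)
    (hi : interior (closure Ω) = Ω) (s : MF n) {x : V n} (hx : x ∉ Ω) : psh s w K x = s x := by
  unfold psh
  rw [H158.K_off D hx, H158.jm_off D hi hx]
  simp

/-- `St2` is transported by the push-forward. -/
theorem st2_push {Ω : Set (V n)} (hΩ : IsOpen Ω) (hb : Bornology.IsBounded Ω)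
    (hi : interior (closure Ω) = Ω) {s₁ s : MF n} (hs1 : SmM s₁) (hs : SmM s)
    (hsym1 : ∀ x, (s₁ x).IsSymm) (hsym : ∀ x, (s x).IsSymm)
    {w K : V n → V n} (D : Dif Ω w K) (hS : St2 Ω s₁ s) : St2 Ω s₁ (psh s w K) := by
  intro U W' hU hW' hU0 hW0
  have hps : SmM (psh s w K) := H158.smM_psh D hs
  have hpy : ∀ x, (psh s w K x).IsSymm := fun x => H158.isSymm_psh D hsym x
  have cs : ∀ {t : MF n}, SmM t → ∀ i j, Continuous fun x => t x i j := fun h i j =>
    (h i j).continuous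
  have hH : ContDiff ℝ ∞ (fun x : V n => x + w x) := contDiff_id.add D.sw
  -- `W = W' ∘ H` solves the equation for `s`
  set W : V n → ℂ := fun x => W' (x + w x) with hWdef
  have hW : ContDiff ℝ ∞ W := hW'.comp hH
  have hoff : ∀ x ∉ Ω, x + w x = x := fun x hx => by rw [D.z x hx, add_zero]
  have hWeq : ∀ x ∈ Ω, dv s W x = 0 := by
    refine dv_zero hΩ hb hi hs hW ?_
    intro φ hφ hφ0
    rw [← bl_eq_flx hsym]
    have hφK : ContDiff ℝ ∞ (fun y => φ (K y)) := hφ.comp D.sK
    have h1 := H158.bl_push D hΩ s (hW'.differentiable (by simp)) (hφK.differentiable (by simp))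
    have h2 : (fun x => φ (K (x + w x))) = φ := by
      funext x
      rw [D.l]
    have h3 : bl Ω s W φ = bl Ω (psh s w K) W' (fun y => φ (K y)) := by
      rw [h1]
      simp only [h2]
      rfl
    rw [h3]
    refine weak Ω hΩ hb _ hps hpy W' _ hW' hφK hW0 ?_
    intro x hx
    have hx' : x ∉ Ω := H158.frontier_off D hΩ hx
    show φ (K x) = 0
    rw [H158.K_off D hx']
    exact hφ0 x hx'
  have hUH : ContDiff ℝ ∞ (fun x => U (x + w x)) := hU.comp hH
  -- the chain of equalities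
  have e1 : bl Ω (psh s w K) U W' = bl Ω s (fun x => U (x + w x)) W :=
    H158.bl_push D hΩ s (hU.differentiable (by simp)) (hW'.differentiable (by simp))
  have e2 : bl Ω s (fun x => U (x + w x)) W = bl Ω s U W := by
    have b : bl Ω s (fun y => U (y + w y) - U y) W = 0 := by
      rw [H884.bl_comm Ω hsym]
      refine weak Ω hΩ hb s hs hsym W _ hW (hUH.sub hU) hWeq fun x hx => ?_
      rw [hoff x (H158.frontier_off D hΩ hx), sub_self]
    rw [H884.bl_sub_left hb (cs hs) hUH hU hW] at b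
    exact sub_eq_zero.mp b
  have e3 : bl Ω s U W = bl Ω s₁ U W := by
    have h := hS U W hU hW hU0 hWeq
    rw [H884.bl_sub_mat hb (cs hs) (cs hs1) hU hW] at h
    exact sub_eq_zero.mp h
  have e4 : bl Ω s₁ U W = bl Ω s₁ U W' := by
    have b : bl Ω s₁ U (fun y => W y - W' y) = 0 := by
      refine weak Ω hΩ hb _ hs1 hsym1 U _ hU (hW.sub hW') hU0 fun x hx => ?_
      show W' (x + w x) - W' x = 0
      rw [hoff x (H158.frontier_off D hΩ hx), sub_self]
    rw [H884.bl_sub_right hb (cs hs1) hU hW hW'] at b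
    exact sub_eq_zero.mp b
  rw [H884.bl_sub_mat hb (cs hps) (cs hs1) hU hW', e1, e2, e3, e4, sub_self]

theorem pd_mul {f g : V n → ℂ} (hf : ContDiff ℝ ∞ f) (hg : ContDiff ℝ ∞ g) (i : Fin n) (x : V n) :
    pd i (fun x => f x * g x) x = pd i f x * g x + f x * pd i g x := by
  unfold pd
  rw [fderiv_fun_mul (hf.differentiable (by simp) x) (hg.differentiable (by simp) x)]
  simp [smul_eq_mul]
  ring

theorem pd_sub {f g : V n → ℂ} (hf : ContDiff ℝ ∞ f) (hg : ContDiff ℝ ∞ g) (i : Fin n) (x : V n) :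
    pd i (fun x => f x - g x) x = pd i f x - pd i g x := by
  unfold pd
  rw [fderiv_fun_sub (hf.differentiable (by simp) x) (hg.differentiable (by simp) x)]
  rfl

/-- The Fourier transform of a divergence free field with bounded support. -/
theorem ft_div {Ω : Set (V n)} (hb : Bornology.IsBounded Ω) (hi : interior (closure Ω) = Ω)
    {G : Fin n → V n → ℂ} (hG : ∀ i, ContDiff ℝ ∞ (G i)) (h0 : ∀ i, ∀ x ∉ Ω, G i x = 0)
    (hdiv : ∀ x ∈ Ω, ∑ i, pd i (G i) x = 0) (ξ : V n) : ∑ i, (ξ i : ℂ) * ft (G i) ξ = 0 := by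
  set φ : V n → ℂ := ex (-ξ) with hφ
  have hφs : ContDiff ℝ ∞ φ := H158.contDiff_ex (-ξ)
  have hF : ∀ i, ContDiff ℝ ∞ (fun x => G i x * φ x) := fun i => (hG i).mul hφs
  have hF0 : ∀ i, ∀ x ∉ Ω, G i x * φ x = 0 := fun i x hx => by rw [h0 i x hx, zero_mul]
  have h1 := fun i => H158.integral_pd_zero hb (hF i) (hF0 i) i
  have hdiv' : ∀ x, ∑ i, pd i (G i) x = 0 := by
    intro x
    by_cases hx : x ∈ Ω
    · exact hdiv x hx
    · refine Finset.sum_eq_zero fun i _ => ?_
      unfold pd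
      rw [H158.fderiv_zero_off hi (hG i) (h0 i) hx]
      simp
  have hint : ∀ i, Integrable fun x => G i x * φ x := by
    intro i
    have hcs : HasCompactSupport (G i) := HasCompactSupport.intro hb.isCompact_closure
      fun x hx => h0 i x fun h => hx (subset_closure h)
    exact ((hG i).continuous.mul hφs.continuous).integrable_of_hasCompactSupport hcs.mul_right
  have h2 : ∫ x, ∑ i, pd i (fun x => G i x * φ x) x = 0 := by
    rw [integral_finsetSum _ fun i _ => (h1 i).1]
    exact Finset.sum_eq_zero fun i _ => (h1 i).2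
  have h3 : ∀ x, ∑ i, pd i (fun x => G i x * φ x) x =
      ∑ i, (-(2 * Real.pi * Complex.I) * (ξ i : ℂ)) * (G i x * φ x) := by
    intro x
    have e : ∀ i, pd i (fun x => G i x * φ x) x = pd i (G i) x * φ x +
        (-(2 * Real.pi * Complex.I) * (ξ i : ℂ)) * (G i x * φ x) := by
      intro i
      rw [pd_mul (hG i) hφs, hφ, H158.pd_ex]
      simp only [Pi.neg_apply]
      push_cast
      ring
    simp only [e, Finset.sum_add_distrib]
    rw [← Finset.sum_mul, hdiv' x, zero_mul, zero_add]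
  simp only [h3] at h2
  rw [integral_finsetSum _ fun i _ => (hint i).const_mul _] at h2
  have h4 : (-(2 * Real.pi * Complex.I) : ℂ) * ∑ i, (ξ i : ℂ) * ft (G i) ξ = 0 := by
    rw [← h2, Finset.mul_sum]
    refine Finset.sum_congr rfl fun i _ => ?_
    rw [integral_const_mul]
    exact (mul_assoc _ _ _).symm
  have hne : (-(2 * Real.pi * Complex.I) : ℂ) ≠ 0 := by
    simp [Real.pi_ne_zero]
  exact (mul_eq_zero.1 h4).resolve_left hne

theorem contDiff_U {v : V n → V n} (hv : ContDiff ℝ ∞ v) (a : Fin n) :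
    ContDiff ℝ ∞ (fun y => ((y a + v y a : ℝ) : ℂ)) := by
  have h1 : ContDiff ℝ ∞ (fun y : V n => y a + v y a) :=
    (contDiff_apply ℝ ℝ a).add ((contDiff_pi.1 hv) a)
  exact Complex.ofRealCLM.contDiff.comp h1

theorem pd_U {v : V n → V n} (hv : ContDiff ℝ ∞ v) (a k : Fin n) (x : V n) :
    pd k (fun y : V n => ((y a + v y a : ℝ) : ℂ)) x =
      (if k = a then 1 else 0) + ((pd k v x a : ℝ) : ℂ) := by
  have h1 := H158.pd_comp hv (u := fun x : V n => ((x a : ℝ) : ℂ)) (x := x)
    ((H158.contDiff_coord a).differentiable (by simp) _) k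
  have h2 : pd k (fun y : V n => ((y a + v y a : ℝ) : ℂ)) x =
      ∑ i, (jm v x i k : ℂ) * pd i (fun x : V n => ((x a : ℝ) : ℂ)) (x + v x) := h1
  rw [h2]
  simp only [H158.pd_coord]
  simp only [mul_ite, mul_one, mul_zero, Finset.sum_ite_eq', Finset.mem_univ, if_true]
  unfold jm
  rw [Matrix.one_apply]
  push_cast
  congr 1
  by_cases h : a = k
  · simp [h]
  · rw [if_neg h, if_neg fun h' => h h'.symm]
    simp

/-- **Row CF_PUSH.** -/
theorem pu2 : RowPU2 := by
  intro n Ω hΩ hsub hi s₁ s₂ hs1 hs2 hsym1 hsym2 hoff w K D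
  have hb : Bornology.IsBounded Ω := core_bounded.subset hsub
  have hps : SmM (psh s₂ w K) := H158.smM_psh D hs2
  have hpo : ∀ x ∉ Ω, psh s₂ w K x = s₁ x := fun x hx => by rw [psh_off' D hi s₂ hx, hoff x hx]
  refine ⟨hps, H158.isSymm_psh D hsym2, hpo,
    st2_push hΩ hb hi hs1 hs2 hsym1 hsym2 D, ?_⟩
  intro w₁ w₂ hw1 hw2 he hd1 hd2 ξ a
  have hg := phi_gauge hΩ hb hi hs2 hsym2 D hw1 hw2 he a (hd2 a)
  set t : MF n := psh s₂ w K with ht
  set U : V n → ℂ := fun y => ((y a + w₁ y a : ℝ) : ℂ) with hU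
  have hUs : ContDiff ℝ ∞ U := contDiff_U hw1 a
  have hfs : ∀ {s : MF n}, SmM s → ∀ i, ContDiff ℝ ∞ (fun y => ∑ j, (s y i j : ℂ) * pd j U y) := by
    intro s hs i
    refine ContDiff.sum fun k _ => ?_
    exact (Complex.ofRealCLM.contDiff.comp (hs i k)).mul (H158.contDiff_pd hUs k)
  set G : Fin n → V n → ℂ := fun i x => df s₁ t i a x
        + ∑ j, df s₁ t i j x * ((pd j w₁ x a : ℝ) : ℂ) with hG
  have hGe : ∀ i, G i = fun x => (∑ j, (t x i j : ℂ) * pd j U x) -
      ∑ j, (s₁ x i j : ℂ) * pd j U x := by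
    intro i
    funext x
    rw [← Finset.sum_sub_distrib]
    have e : ∀ j, (t x i j : ℂ) * pd j U x - (s₁ x i j : ℂ) * pd j U x =
        (if j = a then df s₁ t i j x else 0) + df s₁ t i j x * ((pd j w₁ x a : ℝ) : ℂ) := by
      intro j
      rw [hU, pd_U hw1 a j x]
      unfold df
      push_cast
      split_ifs
      · ring
      · ring
    simp only [e, Finset.sum_add_distrib, Finset.sum_ite_eq', Finset.mem_univ, if_true]
    rfl
  have hGs : ∀ i, ContDiff ℝ ∞ (G i) := fun i => by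
    rw [hGe]
    exact (hfs hps i).sub (hfs hs1 i)
  have hG0 : ∀ i, ∀ x ∉ Ω, G i x = 0 := by
    intro i x hx
    rw [hGe]
    simp only [hpo x hx, sub_self]
  refine ft_div hb hi hGs hG0 ?_ ξ
  intro x hx
  have e : ∀ i, pd i (G i) x = pd i (fun y => ∑ j, (t y i j : ℂ) * pd j U y) x -
      pd i (fun y => ∑ j, (s₁ y i j : ℂ) * pd j U y) x := by
    intro i
    rw [hGe]
    exact pd_sub (hfs hps i) (hfs hs1 i) i x
  simp only [e, Finset.sum_sub_distrib]
  have e1 : ∑ i, pd i (fun y => ∑ j, (t y i j : ℂ) * pd j U y) x = 0 := hg x hx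
  have e2 : ∑ i, pd i (fun y => ∑ j, (s₁ y i j : ℂ) * pd j U y) x = 0 := hd1 a x hx
  rw [e1, e2, sub_zero]

end Vale.Agent.P088.H292
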