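import Vale.Agent.P088.H442.C.Defs
import Vale.Agent.P088.H292.CFPush
import Vale.Agent.P088.H607.DiffC

/-!
# P088, theorem C, row C_PS: the push-forward with a linear bound
-/

open MeasureTheory Set
open scoped ContDiff Matrix

noncomputable section

namespace Vale.Agent.P088.H292.CPs

open Vale.Agent.P088.LR Vale.Agent.P088.LR.CF Vale.Agent.P088.LR.CC

variable {n : ℕ}

theorem cl_le {F : Type*} [NormedAddCommGroup F] [NormedSpace ℝ F] {k : ℕ} {a b : ℝ}
    {f : V n → F} (h : Cl k a f) (hab : a ≤ b) : Cl k b f := fun l hl x => (h l hl x).trans hab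

theorem cl_clm {E F : Type*} [NormedAddCommGroup E] [NormedSpace ℝ E] [NormedAddCommGroup F]
    [NormedSpace ℝ F] {k : ℕ} {a : ℝ} {f : V n → E} (hf : ContDiff ℝ ∞ f) (h : Cl k a f)
    (L : E →L[ℝ] F) (hL : ‖L‖ ≤ 1) : Cl k a (fun x => L (f x)) := by
  intro l hl x
  have h1 : (fun x => L (f x)) = L ∘ f := rfl
  rw [h1]
  refine (ContinuousLinearMap.norm_iteratedFDeriv_comp_left L hf.contDiffAt
    (by exact_mod_cast le_top)).trans ?_
  calc ‖L‖ * ‖iteratedFDeriv ℝ l f x‖ ≤ 1 * ‖iteratedFDeriv ℝ l f x‖ :=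
        mul_le_mul_of_nonneg_right hL (norm_nonneg _)
    _ ≤ a := by rw [one_mul]; exact h l hl x

/-- Products of real functions. -/
theorem cl_mulR {k : ℕ} {a b : ℝ} {f g : V n → ℝ} (hf : ContDiff ℝ ∞ f) (hg : ContDiff ℝ ∞ g)
    (h1 : Cl k a f) (h2 : Cl k b g) : Cl k (2 ^ k * (a * b)) (fun y => f y * g y) := by
  intro l hl x
  have ha : 0 ≤ a := (norm_nonneg _).trans (h1 0 (Nat.zero_le _) 0)
  have hb : 0 ≤ b := (norm_nonneg _).trans (h2 0 (Nat.zero_le _) 0)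
  refine (norm_iteratedFDeriv_mul_le (N := ∞) hf hg x
    (by exact_mod_cast le_top)).trans ?_
  calc ∑ i ∈ Finset.range (l + 1), (l.choose i : ℝ) * ‖iteratedFDeriv ℝ i f x‖ *
        ‖iteratedFDeriv ℝ (l - i) g x‖
      ≤ ∑ i ∈ Finset.range (l + 1), (l.choose i : ℝ) * a * b := by
        refine Finset.sum_le_sum fun i hi => ?_
        have hi' : i ≤ l := Nat.lt_succ_iff.1 (Finset.mem_range.1 hi)
        have g1 := h1 i (hi'.trans hl) x
        have g2 := h2 (l - i) ((Nat.sub_le _ _).trans hl) x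
        gcongr
    _ = 2 ^ l * (a * b) := by
        rw [← Nat.cast_two, ← Nat.cast_pow, ← Nat.sum_range_choose, Nat.cast_sum, Finset.sum_mul]
        refine Finset.sum_congr rfl fun i _ => ?_
        ring
    _ ≤ 2 ^ k * (a * b) := by
        have h3 : (2 : ℝ) ^ l ≤ 2 ^ k := pow_le_pow_right₀ (by norm_num) hl
        have : 0 ≤ a * b := mul_nonneg ha hb
        gcongr

theorem cl_const {k : ℕ} {c b : ℝ} (h : |c| ≤ b) : Cl k b (fun _ : V n => c) := by
  intro l _ x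
  rcases Nat.eq_zero_or_pos l with rfl | hl
  · rw [norm_iteratedFDeriv_zero]
    exact h
  · rw [iteratedFDeriv_const_of_ne (by omega)]
    simp only [Pi.zero_apply, norm_zero]
    exact (abs_nonneg _).trans h

/-- **Composition, linear bound.** -/
theorem lin_comp {ι : Type*} [Fintype ι] (t : Set (ι → ℝ)) (ht : IsOpen t) (p0 : ι → ℝ)
    (hp0 : p0 ∈ t) (Ψ : (ι → ℝ) → ℝ) (hΨ : ContDiffOn ℝ ∞ Ψ t) (hz : Ψ p0 = 0) (n k : ℕ) :
    ∃ C : ℝ, 1 ≤ C ∧ ∀ f : V n → ι → ℝ, ContDiff ℝ ∞ f → ∀ a : ℝ, C * a ≤ 1 →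
      (∀ b, Cl k a (fun x => f x b - p0 b)) →
        0 ≤ a → (∀ x, f x ∈ t) ∧ Cl k (C * a) (fun x => Ψ (f x)) := by
  obtain ⟨r, hr, hrt⟩ := Metric.isOpen_iff.1 ht p0 hp0
  have hrt' : Metric.closedBall p0 (r / 2) ⊆ t :=
    (Metric.closedBall_subset_ball (by linarith)).trans hrt
  have hCe : ∃ C : ℝ, 0 ≤ C ∧ ∀ i ≤ k, ∀ p ∈ Metric.closedBall p0 (r / 2),
      ‖iteratedFDerivWithin ℝ i Ψ t p‖ ≤ C := by
    have h1 : ∀ i, ∃ C : ℝ, ∀ p ∈ Metric.closedBall p0 (r / 2),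
        ‖iteratedFDerivWithin ℝ i Ψ t p‖ ≤ C := fun i =>
      (isCompact_closedBall p0 (r / 2)).exists_bound_of_continuousOn
        ((hΨ.continuousOn_iteratedFDerivWithin (m := i) (by exact_mod_cast le_top)
          ht.uniqueDiffOn).mono hrt')
    choose C hC using h1
    refine ⟨∑ i ∈ Finset.range (k + 1), |C i|, by positivity, fun i hi p hp => ?_⟩
    refine (hC i p hp).trans ((le_abs_self _).trans ?_)
    exact Finset.single_le_sum (f := fun i => |C i|) (fun _ _ => abs_nonneg _)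
      (Finset.mem_range.2 (by omega))
  obtain ⟨C, hC0, hC⟩ := hCe
  obtain ⟨B, hB⟩ := (isCompact_closedBall p0 (r / 2)).exists_bound_of_continuousOn
    ((hΨ.continuousOn_fderiv_of_isOpen ht (by exact_mod_cast le_top)).mono hrt')
  have hk : (0 : ℝ) < k.factorial := by exact_mod_cast Nat.factorial_pos k
  refine ⟨1 + |B| + k.factorial * C + 2 / r, ?_, fun f hf a ha hcl ha0 => ?_⟩
  · have h1 : 0 ≤ |B| := abs_nonneg B
    have h2 : 0 ≤ k.factorial * C := by positivity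
    have h3 : 0 < 2 / r := by positivity
    linarith
  set A : ℝ := 1 + |B| + k.factorial * C + 2 / r with hA
  have hA1 : a ≤ 1 := by
    have h1 : 1 * a ≤ A * a := mul_le_mul_of_nonneg_right (by
      have h1 : 0 ≤ |B| := abs_nonneg B
      have h2 : 0 ≤ k.factorial * C := by positivity
      have h3 : 0 < 2 / r := by positivity
      rw [hA]; linarith) ha0
    linarith
  have hA2 : a ≤ r / 2 := by
    have h1 : 2 / r * a ≤ A * a := mul_le_mul_of_nonneg_right (by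
      have h1 : 0 ≤ |B| := abs_nonneg B
      have h2 : 0 ≤ k.factorial * C := by positivity
      rw [hA]; linarith) ha0
    have h2 : 2 / r * a ≤ 1 := h1.trans ha
    have h3 : a = r / 2 * (2 / r * a) := by field_simp
    rw [h3]
    calc r / 2 * (2 / r * a) ≤ r / 2 * 1 := mul_le_mul_of_nonneg_left h2 (by positivity)
      _ = r / 2 := mul_one _
  have hAB : |B| ≤ A := by
    have h2 : 0 ≤ k.factorial * C := by positivity
    have h3 : 0 < 2 / r := by positivity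
    rw [hA]; linarith
  have hAC : k.factorial * C ≤ A := by
    have h1 : 0 ≤ |B| := abs_nonneg B
    have h3 : 0 < 2 / r := by positivity
    rw [hA]; linarith
  have hdist : ∀ x, dist (f x) p0 ≤ a := by
    intro x
    refine (dist_pi_le_iff ha0).2 fun b => ?_
    have h1 := hcl b 0 (Nat.zero_le _) x
    rw [norm_iteratedFDeriv_zero] at h1
    rw [Real.dist_eq, ← Real.norm_eq_abs]
    exact h1
  have hball : ∀ x, f x ∈ Metric.closedBall p0 (r / 2) := fun x =>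
    Metric.mem_closedBall.2 ((hdist x).trans hA2)
  have hft : ∀ x, f x ∈ t := fun x => hrt' (hball x)
  refine ⟨hft, fun l hl x => ?_⟩
  rcases Nat.eq_zero_or_pos l with rfl | hl0
  · rw [norm_iteratedFDeriv_zero]
    have h1 : ‖Ψ (f x) - Ψ p0‖ ≤ B * ‖f x - p0‖ :=
      Convex.norm_image_sub_le_of_norm_fderiv_le (s := Metric.closedBall p0 (r / 2))
        (fun y hy => (hΨ.differentiableOn (by simp)).differentiableAt (ht.mem_nhds (hrt' hy)))
        (fun y hy => hB y hy) (convex_closedBall _ _)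
        (Metric.mem_closedBall_self (by positivity)) (hball x)
    rw [hz, sub_zero] at h1
    have h2 : ‖f x - p0‖ ≤ a := by
      rw [← dist_eq_norm]
      exact hdist x
    calc ‖Ψ (f x)‖ ≤ B * ‖f x - p0‖ := h1
      _ ≤ |B| * ‖f x - p0‖ := mul_le_mul_of_nonneg_right (le_abs_self B) (norm_nonneg _)
      _ ≤ |B| * a := mul_le_mul_of_nonneg_left h2 (abs_nonneg B)
      _ ≤ A * a := mul_le_mul_of_nonneg_right hAB ha0
  · have hrange : Set.range f ⊆ t := by rintro _ ⟨x, rfl⟩; exact hft x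
    set D : ℝ := a ^ ((l : ℝ)⁻¹) with hD
    have hD0 : 0 ≤ D := Real.rpow_nonneg ha0 _
    have hD1 : D ≤ 1 := Real.rpow_le_one ha0 hA1 (by positivity)
    have hDl : D ^ l = a := Real.rpow_inv_natCast_pow ha0 (by omega)
    have key : ‖iteratedFDeriv ℝ l (Ψ ∘ f) x‖ ≤ l.factorial * C * D ^ l := by
      refine norm_iteratedFDeriv_comp_le' hrange ht.uniqueDiffOn hΨ hf
        (by exact_mod_cast le_top) x (fun i hi => hC i (hi.trans hl) _ (hball x)) ?_
      intro i hi1 hi2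
      refine H72.iter_pi_le hf i x (by positivity) fun b => ?_
      have h1 := hcl b i (hi2.trans hl) x
      have h2 : ContDiff ℝ ∞ (fun y => f y b) := contDiff_pi.1 hf b
      rw [H72.iter_const_sub h2 hi1] at h1
      refine h1.trans ?_
      rw [← hDl]
      exact pow_le_pow_of_le_one hD0 hD1 hi2
    refine key.trans ?_
    rw [hDl]
    have h3 : (l.factorial : ℝ) ≤ k.factorial := by exact_mod_cast Nat.factorial_le hl
    calc (l.factorial : ℝ) * C * a ≤ k.factorial * C * a := by gcongr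
      _ ≤ A * a := mul_le_mul_of_nonneg_right hAC ha0

/-- The normalised tensor before composition with `K`. -/
def nt (t : MF n) (w : V n → V n) (i j : Fin n) (x : V n) : ℝ :=
  ((jm w x).det)⁻¹ * (jm w x * t x * (jm w x)ᵀ) i j

/-- **Linear bound of the normalised tensor.** -/
theorem lin_push (n k : ℕ) : ∃ C : ℝ, 1 ≤ C ∧ ∀ (Ω : Set (V n)) (t : MF n) (w K : V n → V n),
    SmM t → Dif Ω w K → ∀ a : ℝ, 0 ≤ a → C * a ≤ 1 →
    (∀ i j, Cl k a (fun x => t x i j - (1 : Matrix (Fin n) (Fin n) ℝ) i j)) → Cl (k + 1) a w →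
    ∀ i j, ContDiff ℝ ∞ (nt t w i j) ∧
      Cl k (C * a) (fun x => nt t w i j x - (1 : Matrix (Fin n) (Fin n) ℝ) i j) := by
  let J := (Fin n × Fin n) ⊕ (Fin n × Fin n)
  let p0 : J → ℝ := Sum.elim (fun _ => 0) (fun a => (1 : Matrix (Fin n) (Fin n) ℝ) a.1 a.2)
  let A : (J → ℝ) → Matrix (Fin n) (Fin n) ℝ := fun p => Matrix.of fun i j =>
    (1 : Matrix (Fin n) (Fin n) ℝ) i j + p (Sum.inl (i, j))
  let S : (J → ℝ) → Matrix (Fin n) (Fin n) ℝ := fun p => Matrix.of fun i j => p (Sum.inr (i, j))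
  have hA : ∀ i j, ContDiff ℝ ∞ (fun p => A p i j) := fun i j =>
    contDiff_const.add (contDiff_apply ℝ ℝ (Sum.inl (i, j) : J))
  have hS : ∀ i j, ContDiff ℝ ∞ (fun p => S p i j) := fun i j =>
    contDiff_apply ℝ ℝ (Sum.inr (i, j) : J)
  have hAt : ∀ i j, ContDiff ℝ ∞ (fun p => (A p)ᵀ i j) := fun i j => hA j i
  have hdet : ContDiff ℝ ∞ (fun p => (A p).det) := H72.cd_det hA
  have hA0 : A p0 = 1 := by
    ext i j
    show (1 : Matrix (Fin n) (Fin n) ℝ) i j + 0 = _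
    rw [add_zero]
  have hS0 : S p0 = 1 := rfl
  have ht : IsOpen {p : J → ℝ | 0 < (A p).det} := isOpen_lt continuous_const hdet.continuous
  have hΨ' : ∀ i j, ContDiffOn ℝ ∞ (fun p => ((A p).det)⁻¹ * (A p * S p * (A p)ᵀ) i j)
      {p : J → ℝ | 0 < (A p).det} := by
    intro i j
    refine ContDiffOn.mul ?_ (H72.cd_mul (H72.cd_mul hA hS) hAt i j).contDiffOn
    exact hdet.contDiffOn.inv fun p hp => ne_of_gt hp
  have hΨ : ∀ i j, ContDiffOn ℝ ∞ (fun p => ((A p).det)⁻¹ * (A p * S p * (A p)ᵀ) i j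
      - (1 : Matrix (Fin n) (Fin n) ℝ) i j) {p : J → ℝ | 0 < (A p).det} := fun i j =>
    (hΨ' i j).sub contDiffOn_const
  have key : ∀ b : Fin n × Fin n, ∃ C : ℝ, 1 ≤ C ∧ ∀ f : V n → J → ℝ, ContDiff ℝ ∞ f →
      ∀ a : ℝ, C * a ≤ 1 → (∀ b, Cl k a (fun x => f x b - p0 b)) → 0 ≤ a →
        (∀ x, f x ∈ {p : J → ℝ | 0 < (A p).det}) ∧
        Cl k (C * a) (fun x => ((A (f x)).det)⁻¹ * (A (f x) * S (f x) * (A (f x))ᵀ) b.1 b.2
          - (1 : Matrix (Fin n) (Fin n) ℝ) b.1 b.2) := by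
    intro b
    refine lin_comp _ ht p0 ?_ (fun p => ((A p).det)⁻¹ * (A p * S p * (A p)ᵀ) b.1 b.2
          - (1 : Matrix (Fin n) (Fin n) ℝ) b.1 b.2) (hΨ b.1 b.2) ?_ n k
    · show 0 < (A p0).det
      rw [hA0, Matrix.det_one]; exact one_pos
    · simp only [hA0, hS0, Matrix.det_one, inv_one, one_mul, Matrix.transpose_one, sub_self]
  choose d hd1 hd using key
  have hsd : ∀ b, d b ≤ 1 + ∑ b, d b := by
    intro b
    have h1 : d b ≤ ∑ b, d b := Finset.single_le_sum (f := d)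
      (fun b _ => zero_le_one.trans (hd1 b)) (Finset.mem_univ b)
    linarith
  refine ⟨1 + ∑ b, d b, ?_, fun Ω t w K hs hD a ha0 ha hcs hcw i j => ?_⟩
  · have : 0 ≤ ∑ b, d b := Finset.sum_nonneg fun b _ => zero_le_one.trans (hd1 b)
    linarith
  let f : V n → J → ℝ := fun x => Sum.elim (fun a => pd a.2 w x a.1) (fun a => t x a.1 a.2)
  have hfd : ContDiff ℝ ∞ (fderiv ℝ w) := hD.sw.fderiv_right (by simp)
  have hf : ContDiff ℝ ∞ f := by
    refine contDiff_pi.2 fun a => ?_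
    rcases a with a | a
    · have h1 : ContDiff ℝ ∞ (fun x => fderiv ℝ w x (Pi.single a.2 1)) :=
        hfd.clm_apply contDiff_const
      exact contDiff_pi.1 h1 a.1
    · exact hs a.1 a.2
  have hcl : ∀ b, Cl k a (fun x => f x b - p0 b) := by
    rintro (b | b)
    · have h1 : (fun x => f x (Sum.inl b) - p0 (Sum.inl b)) = fun x => pd b.2 w x b.1 := by
        funext x
        show pd b.2 w x b.1 - 0 = _
        rw [sub_zero]
      rw [h1]
      exact H72.cl_pd hD.sw hcw b.1 b.2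
    · exact hcs b.1 b.2
  have hda : d (i, j) * a ≤ 1 :=
    (mul_le_mul_of_nonneg_right (hsd (i, j)) ha0).trans ha
  obtain ⟨h1, h2⟩ := hd (i, j) f hf a hda hcl ha0
  have hsm : ContDiff ℝ ∞ (fun x => ((A (f x)).det)⁻¹ * (A (f x) * S (f x) * (A (f x))ᵀ) i j) := by
    have := (hΨ' i j).comp (s := univ) hf.contDiffOn fun x _ => h1 x
    exact contDiffOn_univ.1 this
  exact ⟨hsm, cl_le h2 (mul_le_mul_of_nonneg_right (hsd (i, j)) ha0)⟩

/-- Bounded derivatives of a function which is constant off the ball. -/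
theorem bdd_of_one {f : V n → ℝ} (hf : ContDiff ℝ ∞ f) (h1 : ∀ x ∉ bal n, f x = 1) (k : ℕ) :
    ∃ B : ℝ, 0 ≤ B ∧ ∀ l ≤ k, ∀ x, ‖iteratedFDeriv ℝ l f x‖ ≤ B := by
  have hcb : IsCompact (bal n) := by
    refine Metric.isCompact_of_isClosed_isBounded ?_ ?_
    · exact isClosed_le (by fun_prop) continuous_const
    · refine (Metric.isBounded_Icc (fun _ : Fin n => (0 : ℝ)) (fun _ => 1)).subset ?_
      intro x hx
      have h2 : ∀ j, (x j - 1 / 2) ^ 2 ≤ 1 / 16 := fun j =>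
        (Finset.single_le_sum (f := fun j => (x j - 1 / 2) ^ 2) (fun i _ => sq_nonneg _)
          (Finset.mem_univ j)).trans hx
      refine Set.mem_Icc.2 ⟨fun j => ?_, fun j => ?_⟩
      · have := h2 j
        simp only
        nlinarith
      · have := h2 j
        simp only
        nlinarith
  have hg : ContDiff ℝ ∞ fun x => f x - 1 := hf.sub contDiff_const
  have hs : HasCompactSupport fun x => f x - 1 := by
    refine HasCompactSupport.intro hcb fun x hx => ?_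
    rw [h1 x hx, sub_self]
  have h2 : ∀ l, ∃ B : ℝ, ∀ x, ‖iteratedFDeriv ℝ l (fun x => f x - 1) x‖ ≤ B := fun l =>
    (hs.iteratedFDeriv l).exists_bound_of_continuous
      (hg.continuous_iteratedFDeriv (by exact_mod_cast le_top))
  choose B hB using h2
  refine ⟨1 + ∑ l ∈ Finset.range (k + 1), |B l|, by positivity, fun l hl x => ?_⟩
  have h3 : ‖iteratedFDeriv ℝ l (fun x => f x - 1) x‖ ≤ ∑ l ∈ Finset.range (k + 1), |B l| :=
    ((hB l x).trans (le_abs_self _)).trans (Finset.single_le_sum (f := fun l => |B l|)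
      (fun _ _ => abs_nonneg _) (Finset.mem_range.2 (by omega)))
  rcases Nat.eq_zero_or_pos l with rfl | hl0
  · rw [norm_iteratedFDeriv_zero] at h3 ⊢
    calc ‖f x‖ = ‖1 + (f x - 1)‖ := by rw [add_sub_cancel]
      _ ≤ ‖(1 : ℝ)‖ + ‖f x - 1‖ := norm_add_le _ _
      _ ≤ 1 + ∑ l ∈ Finset.range (k + 1), |B l| := by
        rw [norm_one]
        linarith
  · rw [H72.iter_const_sub hf hl0] at h3
    linarith

/-- **Linear bound of the ratio.** -/
theorem lin_ratio (n k : ℕ) (φ : V n → ℝ) (hφ : SmP φ) (h1 : ∀ x ∉ bal n, φ x = 1) :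
    ∃ C : ℝ, 1 ≤ C ∧ ∀ w : V n → V n, ContDiff ℝ ∞ w → ∀ a : ℝ, 0 ≤ a → a ≤ 1 → Cl k a w →
      Cl k (C * a) (fun x => φ x ^ 2 * (φ (x + w x) ^ 2)⁻¹ - 1) := by
  have hs2 : ContDiff ℝ ∞ fun x => φ x ^ 2 := hφ.1.pow 2
  have hs3 : ContDiff ℝ ∞ fun x => (φ x ^ 2)⁻¹ := hs2.inv fun x => (pow_pos (hφ.2 x) 2).ne'
  obtain ⟨B, hB0, hB⟩ := bdd_of_one hs2 (fun x hx => by rw [h1 x hx, one_pow]) k
  obtain ⟨B', hB0', hB'⟩ := bdd_of_one hs3
    (fun x hx => by simp only [h1 x hx, one_pow, inv_one]) (k + 1)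
  obtain ⟨C, hC, hd⟩ := H607.diffc k 1 B' le_rfl hB0'
  refine ⟨1 + 2 ^ k * (B * C), ?_, fun w hw a ha0 ha1 hcw => ?_⟩
  · have : 0 ≤ 2 ^ k * (B * C) := by positivity
    linarith
  have hid : ∀ i, 1 ≤ i → i ≤ k → ∀ x : V n, ‖iteratedFDeriv ℝ i (fun x : V n => x) x‖ ≤ 1 := by
    intro i hi1 _ x
    obtain ⟨m, rfl⟩ : ∃ m, i = m + 1 := ⟨i - 1, by omega⟩
    rw [← norm_iteratedFDeriv_fderiv]
    have h2 : fderiv ℝ (fun x : V n => x) = fun _ => ContinuousLinearMap.id ℝ (V n) := by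
      funext x
      exact fderiv_fun_id
    rw [h2]
    rcases Nat.eq_zero_or_pos m with rfl | hm
    · rw [norm_iteratedFDeriv_zero]
      exact ContinuousLinearMap.norm_id_le
    · rw [iteratedFDeriv_const_of_ne (by omega)]
      simp
  have h2 := hd n ℝ (fun x => (φ x ^ 2)⁻¹) (fun x => x) w hs3 contDiff_id hw
    (fun i _ hi2 x => hB' i hi2 x) hid a ha1 hcw
  have hsw : ContDiff ℝ ∞ fun x => (φ (x + w x) ^ 2)⁻¹ - (φ x ^ 2)⁻¹ :=
    (hs3.comp (contDiff_id.add hw)).sub hs3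
  have h3 := cl_mulR hs2 hsw (fun l hl x => hB l hl x) h2
  have h4 : (fun x => φ x ^ 2 * (φ (x + w x) ^ 2)⁻¹ - 1) = fun x =>
      φ x ^ 2 * ((φ (x + w x) ^ 2)⁻¹ - (φ x ^ 2)⁻¹) := by
    funext x
    rw [mul_sub, mul_inv_cancel₀ (pow_pos (hφ.2 x) 2).ne']
  rw [h4]
  refine cl_le h3 ?_
  have : 2 ^ k * (B * (C * a)) = 2 ^ k * (B * C) * a := by ring
  rw [this]
  exact mul_le_mul_of_nonneg_right (by linarith) ha0

theorem bal_core : bal n ⊆ core n := by
  intro x hx j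
  have h1 : (x j - 1 / 2) ^ 2 ≤ 1 / 16 :=
    (Finset.single_le_sum (f := fun j => (x j - 1 / 2) ^ 2) (fun i _ => sq_nonneg _)
      (Finset.mem_univ j)).trans hx
  have h2 : |x j - 1 / 2| ≤ 1 / 4 := by
    refine abs_le_of_sq_le_sq ?_ (by norm_num)
    nlinarith
  rw [abs_le] at h2
  constructor <;> linarith [h2.1, h2.2]

/-- **Row C_PS**, with the second clause of row C_BA as hypothesis. -/
theorem psc' (hBA : ∀ {n : ℕ} (φ : V n → ℝ), SmP φ → ∀ t : MF n, SmM t → ∃ q : V n → ℝ,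
    ContDiff ℝ ∞ q ∧ ∀ x, dv t (cx φ) x = (q x : ℂ) * φ x) : RowPSC := by
  intro n M φ q₀ hba C₀
  obtain ⟨C₁, hC₁, H₁⟩ := lin_push n M
  obtain ⟨C₂, hC₂, H₂⟩ := lin_ratio n M φ hba.p hba.one
  have hφ := hba.p
  have hφ0 : ∀ x, φ x ^ 2 ≠ 0 := fun x => (pow_pos (hφ.2 x) 2).ne'
  set C₃ : ℝ := 2 ^ M * (C₂ * 2) + C₁ with hC₃
  have hC₃' : 1 ≤ C₃ := by
    have : 0 ≤ 2 ^ M * (C₂ * 2) := by positivity
    rw [hC₃]; linarith
  refine ⟨|C₀| * C₃ + C₁ + C₂, ?_, ?_⟩
  · have : 0 ≤ |C₀| * C₃ := by positivity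
    linarith
  intro Ω t q hBt w K D hK a ha0 ha hct hcw
  have ha1 : C₁ * a ≤ 1 := by
    refine (mul_le_mul_of_nonneg_right ?_ ha0).trans ha
    have : 0 ≤ |C₀| * C₃ := by positivity
    linarith
  have ha2 : a ≤ 1 := by
    have : 1 * a ≤ C₁ * a := mul_le_mul_of_nonneg_right hC₁ ha0
    linarith
  -- the two tensors
  set s : MF n := fun x => φ x ^ 2 • t x with hs
  have hss : SmM s := fun i j => (hφ.1.pow 2).mul (hBt.sm i j)
  have hssym : ∀ x, (s x).IsSymm := fun x => by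
    have h1 : (t x)ᵀ = t x := hBt.sy x
    show (φ x ^ 2 • t x)ᵀ = φ x ^ 2 • t x
    rw [Matrix.transpose_smul, h1]
  have hs1 : SmM (sc fun x => φ x ^ 2) := fun i j => (hφ.1.pow 2).mul contDiff_const
  have hs1sym : ∀ x, (sc (fun x => φ x ^ 2) x).IsSymm := fun x => by
    show (φ x ^ 2 • (1 : Matrix (Fin n) (Fin n) ℝ))ᵀ = φ x ^ 2 • 1
    rw [Matrix.transpose_smul, Matrix.transpose_one]
  have hoff : ∀ x ∉ Ω, s x = sc (fun x => φ x ^ 2) x := fun x hx => by
    show φ x ^ 2 • t x = φ x ^ 2 • 1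
    rw [hBt.off x hx]
  obtain ⟨p1, p2, p3, p4, -⟩ := H292.pu2 Ω hBt.op (hBt.sub.trans bal_core) hBt.reg
    (sc fun x => φ x ^ 2) s hs1 hss hs1sym hssym hoff w K D
  set t' : MF n := fun y => (φ y ^ 2)⁻¹ • psh s w K y with ht'
  have hst' : SmM t' := fun i j =>
    ((hφ.1.pow 2).inv fun x => (pow_pos (hφ.2 x) 2).ne').mul (p1 i j)
  have hE : ∀ x, psh s w K x = φ x ^ 2 • t' x := fun x => by
    show psh s w K x = φ x ^ 2 • ((φ x ^ 2)⁻¹ • psh s w K x)
    rw [smul_smul, mul_inv_cancel₀ (hφ0 x), one_smul]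
  obtain ⟨q', hq', hq'e⟩ := hBA φ hφ t' hst'
  refine ⟨t', q', ⟨hba, hBt.op, hBt.reg, hBt.sub, hst', fun x => ?_, fun x hx => ?_, hq', hq'e, ?_⟩,
    hE, fun i j => ?_⟩
  · have h1 : (psh s w K x)ᵀ = psh s w K x := p2 x
    show ((φ x ^ 2)⁻¹ • psh s w K x)ᵀ = (φ x ^ 2)⁻¹ • psh s w K x
    rw [Matrix.transpose_smul, h1]
  · show (φ x ^ 2)⁻¹ • psh s w K x = 1
    rw [p3 x hx]
    show (φ x ^ 2)⁻¹ • (φ x ^ 2 • (1 : Matrix (Fin n) (Fin n) ℝ)) = 1
    rw [smul_smul, inv_mul_cancel₀ (hφ0 x), one_smul]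
  · have h1 : (fun x => φ x ^ 2 • t' x) = psh s w K := funext fun x => (hE x).symm
    rw [h1]
    exact p4 hBt.st
  · -- the estimate
    have hctR : ∀ i j, Cl M a (fun x => t x i j - (1 : Matrix (Fin n) (Fin n) ℝ) i j) := by
      intro i j
      have h1 : ContDiff ℝ ∞ (ent t i j) :=
        Complex.ofRealCLM.contDiff.comp ((hBt.sm i j).sub contDiff_const)
      have h2 := cl_clm h1 (hct i j) Complex.reCLM Complex.reCLM_norm.le
      exact h2
    have h1 := H₁ Ω t w K hBt.sm D a ha0 ha1 hctR hcw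
    have h2 := H₂ w D.sw a ha0 ha2 (fun l hl x => hcw l (by omega) x)
    obtain ⟨g1, g2⟩ := h1 i j
    have g3 : Cl M 2 (nt t w i j) := by
      have e : nt t w i j = fun x => (nt t w i j x - (1 : Matrix (Fin n) (Fin n) ℝ) i j)
          + (1 : Matrix (Fin n) (Fin n) ℝ) i j := by
        funext x
        rw [sub_add_cancel]
      rw [e]
      have hc : |(1 : Matrix (Fin n) (Fin n) ℝ) i j| ≤ 1 := by
        rw [Matrix.one_apply]
        split_ifs <;> simp
      refine cl_le (H607.cl_add607 (g1.sub contDiff_const) contDiff_const g2 (cl_const hc)) ?_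
      linarith
    set P : V n → ℝ := fun x => φ x ^ 2 * (φ (x + w x) ^ 2)⁻¹ with hP
    have hPs : ContDiff ℝ ∞ P := (hφ.1.pow 2).mul
      (((hφ.1.pow 2).inv fun x => (pow_pos (hφ.2 x) 2).ne').comp (contDiff_id.add D.sw))
    have g4 : Cl M (C₃ * a) (fun x => P x * nt t w i j x
        - (1 : Matrix (Fin n) (Fin n) ℝ) i j) := by
      have e : (fun x => P x * nt t w i j x - (1 : Matrix (Fin n) (Fin n) ℝ) i j) =
          fun x => (P x - 1) * nt t w i j x
            + (nt t w i j x - (1 : Matrix (Fin n) (Fin n) ℝ) i j) := by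
        funext x
        ring
      rw [e]
      have h5 := cl_mulR (hPs.sub contDiff_const) g1 h2 g3
      refine cl_le (H607.cl_add607 ((hPs.sub contDiff_const).mul g1) (g1.sub contDiff_const)
        h5 g2) (le_of_eq ?_)
      rw [hC₃]
      ring
    have g5 := hK _ ((hPs.mul g1).sub contDiff_const) _ g4
    have e2 : ent t' i j = fun y => Complex.ofRealCLM (P (K y) * nt t w i j (K y)
        - (1 : Matrix (Fin n) (Fin n) ℝ) i j) := by
      funext y
      show ((t' y i j - (1 : Matrix (Fin n) (Fin n) ℝ) i j : ℝ) : ℂ) =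
        ((P (K y) * nt t w i j (K y) - (1 : Matrix (Fin n) (Fin n) ℝ) i j : ℝ) : ℂ)
      congr 2
      show (φ y ^ 2)⁻¹ * ((jm w (K y)).det⁻¹ *
        (jm w (K y) * (φ (K y) ^ 2 • t (K y)) * (jm w (K y))ᵀ) i j) =
        φ (K y) ^ 2 * (φ (K y + w (K y)) ^ 2)⁻¹ * ((jm w (K y)).det⁻¹ *
          (jm w (K y) * t (K y) * (jm w (K y))ᵀ) i j)
      rw [D.r y, Matrix.mul_smul, Matrix.smul_mul, Matrix.smul_apply, smul_eq_mul]
      ring
    rw [e2]
    have hsm : ContDiff ℝ ∞ fun y => P (K y) * nt t w i j (K y)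
        - (1 : Matrix (Fin n) (Fin n) ℝ) i j := ((hPs.mul g1).sub contDiff_const).comp D.sK
    refine cl_le (cl_clm hsm g5 Complex.ofRealCLM Complex.ofRealCLM_norm.le) ?_
    have h6 : C₀ * (C₃ * a) ≤ |C₀| * C₃ * a := by
      rw [← mul_assoc]
      exact mul_le_mul_of_nonneg_right
        (mul_le_mul_of_nonneg_right (le_abs_self _) (by linarith)) ha0
    refine h6.trans (mul_le_mul_of_nonneg_right ?_ ha0)
    linarith

theorem pd_real {f : V n → ℝ} (hf : ContDiff ℝ ∞ f) (j : Fin n) (x : V n) :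
    pd j (fun y => ((f y : ℝ) : ℂ)) x = ((pd j f x : ℝ) : ℂ) := by
  have h1 : HasFDerivAt (fun y => ((f y : ℝ) : ℂ)) (Complex.ofRealCLM.comp (fderiv ℝ f x)) x :=
    Complex.ofRealCLM.hasFDerivAt.comp x ((hf.differentiable (by simp)) x).hasFDerivAt
  unfold pd
  rw [h1.fderiv]
  rfl

theorem contDiff_pdR {f : V n → ℝ} (hf : ContDiff ℝ ∞ f) (j : Fin n) : ContDiff ℝ ∞ (pd j f) := by
  have hfd : ContDiff ℝ ∞ (fderiv ℝ f) := hf.fderiv_right (by simp)
  exact hfd.clm_apply contDiff_const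

/-- Second clause of row C_BA. -/
theorem bac2 (φ : V n → ℝ) (hφ : SmP φ) (t : MF n) (ht : SmM t) :
    ∃ q : V n → ℝ, ContDiff ℝ ∞ q ∧ ∀ x, dv t (cx φ) x = (q x : ℂ) * φ x := by
  have h1 : ∀ i, ContDiff ℝ ∞ fun y => ∑ j, t y i j * pd j φ y := fun i =>
    ContDiff.sum fun j _ => (ht i j).mul (contDiff_pdR hφ.1 j)
  refine ⟨fun x => (∑ i, pd i (fun y => ∑ j, t y i j * pd j φ y) x) / φ x, ?_, fun x => ?_⟩
  · exact (ContDiff.sum fun i _ => contDiff_pdR (h1 i) i).div hφ.1 fun x => (hφ.2 x).ne'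
  · have h2 : ∀ i, pd i (fun y => ∑ j, (t y i j : ℂ) * pd j (cx φ) y) x =
        ((pd i (fun y => ∑ j, t y i j * pd j φ y) x : ℝ) : ℂ) := by
      intro i
      have h3 : (fun y => ∑ j, (t y i j : ℂ) * pd j (cx φ) y) =
          fun y => ((∑ j, t y i j * pd j φ y : ℝ) : ℂ) := by
        funext y
        push_cast
        refine Finset.sum_congr rfl fun j _ => ?_
        have h4 := pd_real hφ.1 j y
        have h5 : pd j (cx φ) y = ((pd j φ y : ℝ) : ℂ) := h4
        rw [h5]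
      rw [h3]
      exact pd_real (h1 i) i x
    unfold dv
    simp only [h2]
    have h6 : (φ x : ℂ) ≠ 0 := by exact_mod_cast (hφ.2 x).ne'
    push_cast
    rw [div_mul_cancel₀ _ h6]

/-- **Row C_PS** (no hypothesis). -/
theorem psc : RowPSC := psc' fun φ hφ t ht => bac2 φ hφ t ht

end Vale.Agent.P088.H292.CPs
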