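import Vale.Agent.P088.H738.E2.Defs

/-!
# P088, continuity of the Dirichlet energies
-/

set_option linter.all false

open MeasureTheory Set Filter Topology
open scoped ContDiff Matrix

noncomputable section

namespace Vale.Agent.P088.H292.EC

open Vale.Agent.P088.LR Vale.Agent.P088.LR.B Vale.Agent.P088.LR.CF Vale.Agent.P088.H639

variable {n : ℕ}

/-- The quadratic form of `sc ψ`. -/
theorem quad_sc (ψ : V n → ℝ) (x : V n) (a : Fin n → ℝ) :
    ∑ i, ∑ j, sc ψ x i j * a i * a j = ψ x * ∑ i, a i ^ 2 := by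
  rw [Finset.mul_sum]
  refine Finset.sum_congr rfl fun i _ => ?_
  rw [Finset.sum_eq_single i]
  · simp [sc, sq]
    ring
  · intro j _ hj
    simp [sc, Matrix.one_apply, Ne.symm hj]
  · intro h
    exact absurd (Finset.mem_univ _) h

/-- A perturbation of a quadratic form. -/
theorem quad_near {s t : Matrix (Fin n) (Fin n) ℝ} {δ : ℝ} (h : ∀ i j, |s i j - t i j| ≤ δ)
    (a : Fin n → ℝ) :
    |∑ i, ∑ j, s i j * a i * a j - ∑ i, ∑ j, t i j * a i * a j| ≤ δ * (n * ∑ i, a i ^ 2) := by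
  rcases Nat.eq_zero_or_pos n with hn | hn
  · subst hn
    simp
  have hδ : 0 ≤ δ := (abs_nonneg _).trans (h ⟨0, hn⟩ ⟨0, hn⟩)
  have h1 : ∑ i, ∑ j, s i j * a i * a j - ∑ i, ∑ j, t i j * a i * a j =
      ∑ i, ∑ j, (s i j - t i j) * a i * a j := by
    rw [← Finset.sum_sub_distrib]
    refine Finset.sum_congr rfl fun i _ => ?_
    rw [← Finset.sum_sub_distrib]
    exact Finset.sum_congr rfl fun j _ => by ring
  rw [h1]
  calc |∑ i, ∑ j, (s i j - t i j) * a i * a j| ≤ ∑ i, ∑ j, δ * (|a i| * |a j|) := by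
        refine (Finset.abs_sum_le_sum_abs _ _).trans (Finset.sum_le_sum fun i _ => ?_)
        refine (Finset.abs_sum_le_sum_abs _ _).trans (Finset.sum_le_sum fun j _ => ?_)
        rw [abs_mul, abs_mul, mul_assoc]
        exact mul_le_mul_of_nonneg_right (h i j) (by positivity)
    _ = δ * (∑ i, |a i|) ^ 2 := by
        rw [sq, Finset.sum_mul_sum, Finset.mul_sum]
        exact Finset.sum_congr rfl fun i _ => by rw [Finset.mul_sum]
    _ ≤ δ * (n * ∑ i, a i ^ 2) := by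
        refine mul_le_mul_of_nonneg_left ?_ hδ
        have h2 := sq_sum_le_card_mul_sum_sq (s := (Finset.univ : Finset (Fin n)))
          (f := fun i => |a i|)
        simpa [sq_abs] using h2

/-- Comparison of the energies of one function. -/
theorem rb_near {Ω : Set (V n)} (hO : MeasurableSet Ω) (hb : Bornology.IsBounded Ω) {s : MF n}
    {ψ : V n → ℝ} (hs : ∀ i j, Continuous fun x => s x i j) (hψ : Continuous ψ) {μ δ : ℝ}
    (hμ : 0 < μ) (hψμ : ∀ x ∈ Ω, μ ≤ ψ x) (hδ : 0 ≤ δ)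
    (h : ∀ x ∈ Ω, ∀ i j, |s x i j - sc ψ x i j| ≤ δ) {u : V n → ℝ} (hu : ContDiff ℝ ∞ u) :
    (1 - δ * n / μ) * rb Ω (sc ψ) u u ≤ rb Ω s u u ∧
      rb Ω s u u ≤ (1 + δ * n / μ) * rb Ω (sc ψ) u u := by
  have hsc : ∀ i j, Continuous fun x => sc ψ x i j := fun i j => by
    unfold sc
    simp only [Matrix.smul_apply, smul_eq_mul]
    exact hψ.mul continuous_const
  have i1 := rb_integrable hb hs hu hu
  have i2 := rb_integrable hb hsc hu hu
  have key : ∀ x ∈ Ω, |∑ i, ∑ j, s x i j * pd i u x * pd j u x -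
      ∑ i, ∑ j, sc ψ x i j * pd i u x * pd j u x| ≤
        δ * n / μ * ∑ i, ∑ j, sc ψ x i j * pd i u x * pd j u x := by
    intro x hx
    refine (quad_near (h x hx) fun i => pd i u x).trans ?_
    rw [quad_sc ψ x fun i => pd i u x]
    have h1 : 0 ≤ ∑ i, (pd i u x) ^ 2 := Finset.sum_nonneg fun i _ => sq_nonneg _
    have h2 : δ * (n * ∑ i, (pd i u x) ^ 2) = δ * n / μ * (μ * ∑ i, (pd i u x) ^ 2) := by
      field_simp
    rw [h2]
    refine mul_le_mul_of_nonneg_left (mul_le_mul_of_nonneg_right (hψμ x hx) h1) ?_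
    positivity
  unfold rb
  constructor
  · rw [← integral_const_mul]
    refine setIntegral_mono_on (i2.const_mul _) i1 hO fun x hx => ?_
    have := (abs_le.1 (key x hx)).1
    linarith
  · rw [← integral_const_mul]
    refine setIntegral_mono_on i1 (i2.const_mul _) hO fun x hx => ?_
    have := (abs_le.1 (key x hx)).2
    linarith

/-- Comparison of the energies. -/
theorem En_near {Ω : Set (V n)} {s t : MF n} {ε : ℝ} (hε : 0 ≤ ε) (hε1 : ε ≤ 1)
    (ht : ∀ u : V n → ℝ, ContDiff ℝ ∞ u → 0 ≤ rb Ω t u u)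
    (h : ∀ u : V n → ℝ, ContDiff ℝ ∞ u → (1 - ε) * rb Ω t u u ≤ rb Ω s u u ∧
      rb Ω s u u ≤ (1 + ε) * rb Ω t u u) {f : V n → ℝ} (hf : ContDiff ℝ ∞ f) :
    (1 - ε) * En Ω t f ≤ En Ω s f ∧ En Ω s f ≤ (1 + ε) * En Ω t f := by
  have bt : BddBelow {e | ∃ u : V n → ℝ, ContDiff ℝ ∞ u ∧ (∀ x ∈ frontier Ω, u x = f x) ∧
      e = rb Ω t u u} := ⟨0, by rintro e ⟨u, hu, _, rfl⟩; exact ht u hu⟩
  have bs : BddBelow {e | ∃ u : V n → ℝ, ContDiff ℝ ∞ u ∧ (∀ x ∈ frontier Ω, u x = f x) ∧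
      e = rb Ω s u u} := ⟨0, by
    rintro e ⟨u, hu, _, rfl⟩
    exact (mul_nonneg (by linarith) (ht u hu)).trans (h u hu).1⟩
  constructor
  · unfold En
    refine le_csInf ⟨_, f, hf, fun _ _ => rfl, rfl⟩ ?_
    rintro e ⟨u, hu, huf, rfl⟩
    refine (mul_le_mul_of_nonneg_left (csInf_le bt ⟨u, hu, huf, rfl⟩) (by linarith)).trans
      (h u hu).1
  · have h1 : 0 < 1 + ε := by linarith
    rw [← div_le_iff₀' h1]
    unfold En
    refine le_csInf ⟨_, f, hf, fun _ _ => rfl, rfl⟩ ?_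
    rintro e ⟨u, hu, huf, rfl⟩
    rw [div_le_iff₀' h1]
    exact (csInf_le bs ⟨u, hu, huf, rfl⟩).trans (h u hu).2

theorem En_nn {Ω : Set (V n)} {t : MF n} (ht : ∀ u : V n → ℝ, ContDiff ℝ ∞ u → 0 ≤ rb Ω t u u)
    {f : V n → ℝ} (hf : ContDiff ℝ ∞ f) : 0 ≤ En Ω t f := by
  unfold En
  refine le_csInf ⟨_, f, hf, fun _ _ => rfl, rfl⟩ ?_
  rintro e ⟨u, hu, huf, rfl⟩
  exact ht u hu

theorem eq_of_near {a b : ℝ} (hb : 0 ≤ b)
    (h : ∀ ε : ℝ, 0 < ε → ε ≤ 1 → (1 - ε) * b ≤ a ∧ a ≤ (1 + ε) * b) : a = b := by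
  by_contra hne
  have h0 : 0 < |a - b| := abs_pos.2 (sub_ne_zero.2 hne)
  have h1 : 0 < min 1 (|a - b| / (2 * (b + 1))) := lt_min one_pos (by positivity)
  obtain ⟨h2, h3⟩ := h _ h1 (min_le_left _ _)
  have h4 : min 1 (|a - b| / (2 * (b + 1))) * b ≤ |a - b| / 2 := by
    calc min 1 (|a - b| / (2 * (b + 1))) * b ≤ |a - b| / (2 * (b + 1)) * b :=
          mul_le_mul_of_nonneg_right (min_le_right _ _) hb
      _ = |a - b| / 2 * (b / (b + 1)) := by field_simp
      _ ≤ |a - b| / 2 * 1 := by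
          refine mul_le_mul_of_nonneg_left ?_ (by positivity)
          rw [div_le_one (by positivity)]
          linarith
      _ = |a - b| / 2 := mul_one _
  have h5 : |a - b| ≤ |a - b| / 2 := by
    refine (abs_le.2 ⟨?_, ?_⟩ : |a - b| ≤ |a - b| / 2)
    · linarith
    · linarith
  linarith

/-- **Energies are continuous.** -/
theorem se_lim {Ω : Set (V n)} (hO : MeasurableSet Ω) (hb : Bornology.IsBounded Ω) {s : ℕ → MF n}
    {s₀ : MF n} {ψ : V n → ℝ} (hs : ∀ m i j, Continuous fun x => s m x i j) (hψ : Continuous ψ)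
    {μ : ℝ} (hμ : 0 < μ) (hψμ : ∀ x ∈ Ω, μ ≤ ψ x)
    (hlim : ∀ δ > 0, ∃ m, ∀ x ∈ Ω, ∀ i j, |s m x i j - sc ψ x i j| ≤ δ)
    (hSE : ∀ m, SE Ω s₀ (s m)) : SE Ω s₀ (sc ψ) := by
  intro f hf
  have ht : ∀ u : V n → ℝ, ContDiff ℝ ∞ u → 0 ≤ rb Ω (sc ψ) u u := by
    intro u hu
    unfold rb
    refine setIntegral_nonneg hO fun x hx => ?_
    rw [quad_sc ψ x fun i => pd i u x]
    exact mul_nonneg (hμ.le.trans (hψμ x hx)) (Finset.sum_nonneg fun i _ => sq_nonneg _)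
  refine eq_of_near (En_nn ht hf) fun ε hε hε1 => ?_
  obtain ⟨m, hm⟩ := hlim (ε * μ / (n + 1)) (by positivity)
  rw [hSE m f hf]
  refine En_near hε.le hε1 ht (fun u hu => ?_) hf
  have h1 := rb_near hO hb (hs m) hψ hμ hψμ (by positivity) hm hu
  have h2 : ε * μ / (n + 1) * n / μ ≤ ε := by
    have h3 : ε * μ / (n + 1) * n / μ = ε * (n / (n + 1)) := by field_simp
    rw [h3]
    refine mul_le_of_le_one_right hε.le ?_
    rw [div_le_one (by positivity)]
    linarith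
  have h4 := ht u hu
  constructor
  · refine le_trans (mul_le_mul_of_nonneg_right ?_ h4) h1.1
    linarith
  · refine h1.2.trans (mul_le_mul_of_nonneg_right ?_ h4)
    linarith

/-- (EC) continuity of the energies. -/
theorem ec : E2.RowEC := by
  intro n Ω hO hb s₁ s ψ μ hs hψ hμ hψμ hlim hSE
  refine se_lim hO.measurableSet hb (fun m i j => (hs m i j).continuous) hψ.continuous hμ hψμ
    (fun δ hδ => ?_) hSE
  obtain ⟨M, hM⟩ := hlim δ hδ
  exact ⟨M, hM M le_rfl⟩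

end Vale.Agent.P088.H292.EC
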