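import Vale.Agent.P088.H292.CPush

/-!
# P088, theorem D: pointwise bounds of smooth functions of a metric
-/

open MeasureTheory Set
open scoped ContDiff Matrix

noncomputable section

namespace Vale.Agent.P088.H292.BM

open Vale.Agent.P088.LR Vale.Agent.P088.LR.CF

variable {n : ℕ}

/-- **Composition, pointwise bound.** -/
theorem bdd_comp_pt {ι : Type*} [Fintype ι] (t K : Set (ι → ℝ)) (ht : IsOpen t)
    (hK : IsCompact K) (hKt : K ⊆ t) (Ψ : (ι → ℝ) → ℝ) (hΨ : ContDiffOn ℝ ∞ Ψ t) (n k : ℕ)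
    (B : ℝ) : ∃ C : ℝ, 0 ≤ C ∧ ∀ f : V n → ι → ℝ, ContDiff ℝ ∞ f → (∀ x, f x ∈ t) → ∀ x, f x ∈ K →
      (∀ b, ∀ l ≤ k, ‖iteratedFDeriv ℝ l (fun y => f y b) x‖ ≤ B) →
      ∀ l ≤ k, ‖iteratedFDeriv ℝ l (fun y => Ψ (f y)) x‖ ≤ C := by
  have hCe : ∃ C : ℝ, 0 ≤ C ∧ ∀ i ≤ k, ∀ p ∈ K, ‖iteratedFDerivWithin ℝ i Ψ t p‖ ≤ C := by
    have h1 : ∀ i, ∃ C : ℝ, ∀ p ∈ K, ‖iteratedFDerivWithin ℝ i Ψ t p‖ ≤ C := fun i =>
      hK.exists_bound_of_continuousOn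
        ((hΨ.continuousOn_iteratedFDerivWithin (m := i) (by exact_mod_cast le_top)
          ht.uniqueDiffOn).mono hKt)
    choose C hC using h1
    refine ⟨∑ i ∈ Finset.range (k + 1), |C i|, by positivity, fun i hi p hp => ?_⟩
    refine (hC i p hp).trans ((le_abs_self _).trans ?_)
    exact Finset.single_le_sum (f := fun i => |C i|) (fun _ _ => abs_nonneg _)
      (Finset.mem_range.2 (by omega))
  obtain ⟨C, hC0, hC⟩ := hCe
  refine ⟨k.factorial * C * (max 1 B) ^ k, by positivity, fun f hf hft x hx hcl l hl => ?_⟩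
  have hrange : Set.range f ⊆ t := by rintro _ ⟨x, rfl⟩; exact hft x
  have h1D : (1 : ℝ) ≤ max 1 B := le_max_left _ _
  have key : ‖iteratedFDeriv ℝ l (Ψ ∘ f) x‖ ≤ l.factorial * C * (max 1 B) ^ l := by
    refine norm_iteratedFDeriv_comp_le' hrange ht.uniqueDiffOn hΨ hf
      (by exact_mod_cast le_top) x (fun i hi => hC i (hi.trans hl) _ hx) ?_
    intro i hi1 hi2
    refine H72.iter_pi_le hf i x (by positivity) fun b => ?_
    refine (hcl b i (hi2.trans hl)).trans ?_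
    calc B ≤ max 1 B := le_max_right _ _
      _ = (max 1 B) ^ 1 := (pow_one _).symm
      _ ≤ (max 1 B) ^ i := pow_le_pow_right₀ h1D hi1
  refine key.trans ?_
  have h3 : (l.factorial : ℝ) ≤ k.factorial := by exact_mod_cast Nat.factorial_le hl
  have h4 : (max 1 B) ^ l ≤ (max 1 B) ^ k := pow_le_pow_right₀ h1D hl
  gcongr

/-- Global version. -/
theorem bdd_comp {ι : Type*} [Fintype ι] (t K : Set (ι → ℝ)) (ht : IsOpen t)
    (hK : IsCompact K) (hKt : K ⊆ t) (Ψ : (ι → ℝ) → ℝ) (hΨ : ContDiffOn ℝ ∞ Ψ t) (n k : ℕ)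
    (B : ℝ) : ∃ C : ℝ, 0 ≤ C ∧ ∀ f : V n → ι → ℝ, ContDiff ℝ ∞ f → (∀ x, f x ∈ K) →
      (∀ b, Cl k B (fun y => f y b)) → Cl k C (fun y => Ψ (f y)) := by
  obtain ⟨C, hC, H⟩ := bdd_comp_pt t K ht hK hKt Ψ hΨ n k B
  exact ⟨C, hC, fun f hf hx hcl l hl x => H f hf (fun x => hKt (hx x)) x (hx x)
    (fun b l hl => hcl b l hl x) l hl⟩

/-- The matrix with the entries `p`. -/
def mt (n : ℕ) (p : Fin n × Fin n → ℝ) : Matrix (Fin n) (Fin n) ℝ :=
  Matrix.of fun i j => p (i, j)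

theorem mt_sm (i j : Fin n) : ContDiff ℝ ∞ fun p => mt n p i j := contDiff_apply ℝ ℝ (i, j)

theorem det_sm : ContDiff ℝ ∞ fun p => (mt n p).det := H72.cd_det mt_sm

/-- The compact set of matrices. -/
def KB (n : ℕ) (B : ℝ) : Set (Fin n × Fin n → ℝ) :=
  {p | (∀ b, |p b| ≤ B) ∧ B⁻¹ ≤ (mt n p).det}

theorem KB_compact (n : ℕ) (B : ℝ) : IsCompact (KB n B) := by
  have h1 : KB n B = Icc (fun _ => -B) (fun _ => B) ∩ {p | B⁻¹ ≤ (mt n p).det} := by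
    ext p
    simp only [KB, Set.mem_ofPred_eq, Set.mem_inter_iff, Set.mem_Icc, Pi.le_def, abs_le]
    exact ⟨fun h => ⟨⟨fun b => (h.1 b).1, fun b => (h.1 b).2⟩, h.2⟩,
      fun h => ⟨fun b => ⟨h.1.1 b, h.1.2 b⟩, h.2⟩⟩
  rw [h1]
  exact isCompact_Icc.inter_right (isClosed_le continuous_const det_sm.continuous)

theorem tp_open (n : ℕ) : IsOpen {p : Fin n × Fin n → ℝ | 0 < (mt n p).det} :=
  isOpen_lt continuous_const det_sm.continuous

theorem pow_on (n : ℕ) (r : ℝ) : ContDiffOn ℝ ∞ (fun p => (mt n p).det ^ r)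
    {p : Fin n × Fin n → ℝ | 0 < (mt n p).det} :=
  det_sm.contDiffOn.rpow_const_of_ne fun p hp => ne_of_gt hp

theorem inv_on (n : ℕ) (r : ℝ) (i j : Fin n) :
    ContDiffOn ℝ ∞ (fun p => (mt n p).det ^ r * (mt n p)⁻¹ i j)
      {p : Fin n × Fin n → ℝ | 0 < (mt n p).det} := by
  have h1 : (fun p => (mt n p).det ^ r * (mt n p)⁻¹ i j) =
      fun p => (mt n p).det ^ r * (((mt n p).det)⁻¹ * (mt n p).adjugate i j) := by
    funext p
    rw [Matrix.inv_def, Ring.inverse_eq_inv', Matrix.smul_apply, smul_eq_mul]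
  rw [h1]
  refine (pow_on n r).mul (ContDiffOn.mul ?_ (H72.cd_adj mt_sm i j).contDiffOn)
  exact det_sm.contDiffOn.inv fun p hp => ne_of_gt hp

/-- The entries of a metric. -/
def en (g : MF n) (x : V n) (b : Fin n × Fin n) : ℝ := g x b.1 b.2

theorem en_sm {g : MF n} (hg : SmM g) : ContDiff ℝ ∞ (en g) :=
  contDiff_pi.2 fun b => hg b.1 b.2

theorem mt_en (g : MF n) (x : V n) : mt n (en g x) = g x := rfl

theorem sm_pow {g : MF n} (hg : SmM g) (hp : ∀ x, 0 < (g x).det) (r : ℝ) :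
    ContDiff ℝ ∞ fun x => (g x).det ^ r := by
  have := (pow_on n r).comp (s := univ) (en_sm hg).contDiffOn fun x _ => hp x
  exact contDiffOn_univ.1 this

theorem sm_inv {g : MF n} (hg : SmM g) (hp : ∀ x, 0 < (g x).det) (r : ℝ) (i j : Fin n) :
    ContDiff ℝ ∞ fun x => (g x).det ^ r * (g x)⁻¹ i j := by
  have := (inv_on n r i j).comp (s := univ) (en_sm hg).contDiffOn fun x _ => hp x
  exact contDiffOn_univ.1 this

/-- **The bounds for a metric**: powers of `det g`, entries of `(det g)^r g⁻¹`. -/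
theorem bdd_met (n k : ℕ) (B : ℝ) (hB : 0 < B) (r : ℝ) : ∃ C : ℝ, 1 ≤ C ∧ ∀ g : MF n, SmM g →
    (∀ x, 0 < (g x).det) → ∀ x,
    (∀ i j, ∀ l ≤ k, ‖iteratedFDeriv ℝ l (fun y => g y i j) x‖ ≤ B) → B⁻¹ ≤ (g x).det →
    (∀ l ≤ k, ‖iteratedFDeriv ℝ l (fun y => (g y).det ^ r) x‖ ≤ C) ∧ ((g x).det ^ r)⁻¹ ≤ C ∧
    ∀ i j, ∀ l ≤ k, ‖iteratedFDeriv ℝ l (fun y => (g y).det ^ r * (g y)⁻¹ i j) x‖ ≤ C := by
  have hKt : KB n B ⊆ {p : Fin n × Fin n → ℝ | 0 < (mt n p).det} := fun p hp =>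
    lt_of_lt_of_le (inv_pos.2 hB) hp.2
  obtain ⟨C₁, hC₁, H₁⟩ := bdd_comp_pt _ _ (tp_open n) (KB_compact n B) hKt _ (pow_on n r) n k B
  obtain ⟨C₂, hC₂, H₂⟩ := bdd_comp_pt _ _ (tp_open n) (KB_compact n B) hKt _ (pow_on n (-r)) n k B
  have H₃ := fun b : Fin n × Fin n => bdd_comp_pt _ _ (tp_open n) (KB_compact n B) hKt _
    (inv_on n r b.1 b.2) n k B
  choose C₃ hC₃ H₃ using H₃
  have hs0 : 0 ≤ ∑ b, C₃ b := Finset.sum_nonneg fun b _ => hC₃ b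
  refine ⟨1 + C₁ + C₂ + ∑ b, C₃ b, by linarith, fun g hg hp x hcl hdet => ?_⟩
  have hx : en g x ∈ KB n B := by
    refine ⟨fun b => ?_, hdet⟩
    have h1 := hcl b.1 b.2 0 (Nat.zero_le _)
    rw [norm_iteratedFDeriv_zero] at h1
    exact h1
  have hcl' : ∀ b, ∀ l ≤ k, ‖iteratedFDeriv ℝ l (fun y => en g y b) x‖ ≤ B := fun b l hl =>
    hcl b.1 b.2 l hl
  refine ⟨fun l hl => ?_, ?_, fun i j l hl => ?_⟩
  · exact (H₁ (en g) (en_sm hg) hp x hx hcl' l hl).trans (by linarith)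
  · have h1 := H₂ (en g) (en_sm hg) hp x hx hcl' 0 (Nat.zero_le _)
    rw [norm_iteratedFDeriv_zero] at h1
    have h2 : ((g x).det ^ r)⁻¹ = (g x).det ^ (-r) := (Real.rpow_neg (hp x).le r).symm
    rw [h2]
    have h3 : (g x).det ^ (-r) ≤ C₂ := (le_abs_self _).trans h1
    linarith
  · have h1 : C₃ (i, j) ≤ ∑ b, C₃ b :=
      Finset.single_le_sum (f := C₃) (fun b _ => hC₃ b) (Finset.mem_univ (i, j))
    exact (H₃ (i, j) (en g) (en_sm hg) hp x hx hcl' l hl).trans (by linarith)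

/-! ### Off a regular set -/

theorem iter_zero_off (l : ℕ) : ∀ {F : Type} [NormedAddCommGroup F] [NormedSpace ℝ F]
    {Ω : Set (V n)}, interior (closure Ω) = Ω → ∀ {G : V n → F}, ContDiff ℝ ∞ G →
    (∀ x ∉ Ω, G x = 0) → ∀ {x : V n}, x ∉ Ω → iteratedFDeriv ℝ l G x = 0 := by
  induction l with
  | zero =>
    intro F _ _ Ω hi G hG h0 x hx
    rw [← norm_eq_zero, norm_iteratedFDeriv_zero, h0 x hx, norm_zero]
  | succ l ih =>
    intro F _ _ Ω hi G hG h0 x hx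
    rw [← norm_eq_zero, ← norm_iteratedFDeriv_fderiv, norm_eq_zero]
    exact ih hi (hG.fderiv_right (m := ∞) (by simp))
      (fun y hy => H158.fderiv_zero_off hi hG h0 hy) hx

/-- The derivatives of two functions which agree off a regular set agree there. -/
theorem iter_off {F : Type} [NormedAddCommGroup F] [NormedSpace ℝ F] {Ω : Set (V n)}
    (hi : interior (closure Ω) = Ω) {f f₀ : V n → F} (hf : ContDiff ℝ ∞ f)
    (hf₀ : ContDiff ℝ ∞ f₀) (h : ∀ x ∉ Ω, f x = f₀ x) (l : ℕ) {x : V n} (hx : x ∉ Ω) :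
    iteratedFDeriv ℝ l f x = iteratedFDeriv ℝ l f₀ x := by
  have h1 : iteratedFDeriv ℝ l (f - f₀) x = 0 :=
    iter_zero_off l hi (hf.sub hf₀) (fun y hy => by
      show f y - f₀ y = 0
      rw [h y hy, sub_self]) hx
  rw [iteratedFDeriv_sub_apply (hf.of_le (by exact_mod_cast le_top)).contDiffAt
    (hf₀.of_le (by exact_mod_cast le_top)).contDiffAt] at h1
  exact sub_eq_zero.1 h1

/-- Bounds on `Ω` and off `Ω`. -/
theorem cl_off {F : Type} [NormedAddCommGroup F] [NormedSpace ℝ F] {Ω : Set (V n)}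
    (hi : interior (closure Ω) = Ω) {f f₀ : V n → F} (hf : ContDiff ℝ ∞ f)
    (hf₀ : ContDiff ℝ ∞ f₀) (h : ∀ x ∉ Ω, f x = f₀ x) {k : ℕ} {B : ℝ}
    (h1 : ∀ l ≤ k, ∀ x ∈ Ω, ‖iteratedFDeriv ℝ l f x‖ ≤ B) (h2 : Cl k B f₀) : Cl k B f := by
  intro l hl x
  by_cases hx : x ∈ Ω
  · exact h1 l hl x hx
  · rw [iter_off hi hf hf₀ h l hx]
    exact h2 l hl x

end Vale.Agent.P088.H292.BM
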