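import Vale.Agent.P088.H72.B.Defs

/-!
# P088, stage 2, row EXT: extension by zero
-/

open MeasureTheory Set Filter Topology
open scoped ContDiff Matrix

noncomputable section

namespace Vale.Agent.P088.H292

open Vale.Agent.P088.LR Vale.Agent.P088.LR.B

/-- `t_+^m`. -/
def pp (m : ℕ) (t : ℝ) : ℝ := if 0 < t then t ^ m else 0

theorem pp_succ (m : ℕ) (t : ℝ) : pp (m + 1) t = t * pp m t := by
  unfold pp
  split_ifs with h
  · ring
  · ring

theorem pp_zero (m : ℕ) : pp m 0 = 0 := by simp [pp]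

theorem pp_cont (m : ℕ) : Continuous (pp (m + 1)) := by
  have h : pp (m + 1) = fun t => (max t 0) ^ (m + 1) := by
    funext t
    unfold pp
    split_ifs with h
    · rw [max_eq_left h.le]
    · rw [max_eq_right (not_lt.mp h), zero_pow (Nat.succ_ne_zero m)]
  rw [h]
  exact (continuous_id.max continuous_const).pow _

theorem pp_deriv (m : ℕ) (t : ℝ) :
    HasDerivAt (pp (m + 2)) (((m + 2 : ℕ) : ℝ) * pp (m + 1) t) t := by
  rcases lt_trichotomy t 0 with h | h | h
  · have h1 : pp (m + 2) =ᶠ[𝓝 t] fun _ => 0 := by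
      filter_upwards [Iio_mem_nhds h] with s hs
      simp only [pp, mem_Iio] at hs ⊢
      rw [if_neg (not_lt.mpr hs.le)]
    have h2 : pp (m + 1) t = 0 := by
      unfold pp
      rw [if_neg (not_lt.mpr h.le)]
    rw [h2, mul_zero]
    exact (hasDerivAt_const t (0 : ℝ)).congr_of_eventuallyEq h1
  · subst h
    rw [pp_zero, mul_zero]
    rw [hasDerivAt_iff_tendsto_slope]
    have h1 : Tendsto (pp (m + 1)) (𝓝[≠] 0) (𝓝 0) := by
      have := (pp_cont m).tendsto 0
      rw [pp_zero] at this
      exact this.mono_left nhdsWithin_le_nhds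
    refine h1.congr' ?_
    filter_upwards [self_mem_nhdsWithin] with s hs
    have hs' : s ≠ 0 := hs
    rw [slope_def_field, pp_zero, sub_zero, sub_zero, show m + 2 = (m + 1) + 1 from rfl,
      pp_succ (m + 1) s, mul_comm s, mul_div_assoc, div_self hs', mul_one]
  · have h1 : pp (m + 2) =ᶠ[𝓝 t] fun s => s ^ (m + 2) := by
      filter_upwards [Ioi_mem_nhds h] with s hs
      simp only [pp, mem_Ioi] at hs ⊢
      rw [if_pos hs]
    have h2 : pp (m + 1) t = t ^ (m + 1) := by
      unfold pp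
      rw [if_pos h]
    rw [h2]
    exact (hasDerivAt_pow (m + 2) t).congr_of_eventuallyEq h1

theorem pp_contDiff (m : ℕ) : ContDiff ℝ (m : ℕ∞) (pp (m + 1)) := by
  induction m with
  | zero =>
    exact contDiff_zero.mpr (pp_cont 0)
  | succ m ih =>
    have h1 : deriv (pp (m + 1 + 1)) = fun t => ((m + 2 : ℕ) : ℝ) * pp (m + 1) t := by
      funext t
      exact (pp_deriv m t).deriv
    have h2 : (((m + 1 : ℕ) : ℕ∞) : WithTop ℕ∞) = ((m : ℕ∞) : WithTop ℕ∞) + 1 := by
      push_cast
      rfl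
    rw [h2, contDiff_succ_iff_deriv]
    refine ⟨fun t => (pp_deriv m t).differentiableAt, fun h => ?_, ?_⟩
    · exact absurd h (by simp)
    · rw [h1]
      exact contDiff_const.mul ih

theorem dense_ne {n : ℕ} {ρ : V n → ℝ} (hρ : Dom ρ) : Dense {x | ρ x ≠ 0} := by
  have h : {x | ρ x ≠ 0} = {x | ρ x = 0}ᶜ := rfl
  rw [h, ← interior_eq_empty_iff_dense_compl, eq_empty_iff_forall_notMem]
  intro x hx
  have h1 : ρ =ᶠ[𝓝 x] fun _ => 0 := by
    filter_upwards [mem_interior_iff_mem_nhds.mp hx] with y hy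
    exact hy
  have h2 : ρ x = 0 := h1.self_of_nhds
  apply hρ.nz x h2
  rw [h1.fderiv_eq]
  simp

/-- (EXT) extension by zero. -/
theorem ext : RowEXT := by
  intro n ρ hρ h hh hdiv
  have hsm : ContDiff ℝ ∞ (fun x => if 0 < ρ x then h x else 0) := by
    rw [contDiff_infty]
    intro N
    obtain ⟨g, hg, hg'⟩ := hdiv (N + 1)
    have h1 : (fun x => if 0 < ρ x then h x else 0) = fun x => pp (N + 1) (ρ x) * g x := by
      funext x
      unfold pp
      split_ifs with hx
      · exact hg' x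
      · rw [zero_mul]
    rw [h1]
    have h2 : ContDiff ℝ (N : ℕ∞) (fun x => pp (N + 1) (ρ x)) :=
      (pp_contDiff N).comp (hρ.sm.of_le (by exact_mod_cast le_top))
    exact h2.mul (hg.of_le (by exact_mod_cast le_top))
  refine ⟨hsm, fun k ε hk l hl x => ?_⟩
  have hε : 0 ≤ ε := (norm_nonneg _).trans (hk l hl x)
  have hc : Continuous fun y => ‖iteratedFDeriv ℝ l (fun x => if 0 < ρ x then h x else 0) y‖ :=
    (hsm.continuous_iteratedFDeriv (m := l) (by exact_mod_cast le_top)).norm
  have hcl : IsClosed {y | ‖iteratedFDeriv ℝ l (fun x => if 0 < ρ x then h x else 0) y‖ ≤ ε} :=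
    isClosed_le hc continuous_const
  have hsub : {y | ρ y ≠ 0} ⊆
      {y | ‖iteratedFDeriv ℝ l (fun x => if 0 < ρ x then h x else 0) y‖ ≤ ε} := by
    intro y hy
    change ‖iteratedFDeriv ℝ l (fun x => if 0 < ρ x then h x else 0) y‖ ≤ ε
    rcases lt_or_gt_of_ne (show ρ y ≠ 0 from hy) with hy | hy
    · have h1 : (fun x => if 0 < ρ x then h x else 0) =ᶠ[𝓝 y] fun _ => 0 := by
        filter_upwards [(isOpen_lt hρ.sm.continuous continuous_const).mem_nhds hy] with z hz
        have hz' : ρ z < 0 := hz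
        rw [if_neg (not_lt.mpr hz'.le)]
      rw [(h1.iteratedFDeriv ℝ l).self_of_nhds]
      rcases Nat.eq_zero_or_pos l with h0 | h0
      · subst h0
        rw [norm_iteratedFDeriv_zero]
        simpa using hε
      · rw [iteratedFDeriv_const_of_ne (𝕜 := ℝ) h0.ne']
        simpa using hε
    · have h1 : (fun x => if 0 < ρ x then h x else 0) =ᶠ[𝓝 y] h := by
        filter_upwards [(isOpen_lt continuous_const hρ.sm.continuous).mem_nhds hy] with z hz
        have hz' : 0 < ρ z := hz
        rw [if_pos hz']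
      rw [(h1.iteratedFDeriv ℝ l).self_of_nhds]
      exact hk l hl y
  exact hcl.closure_subset_iff.mpr hsub (dense_ne hρ x)

end Vale.Agent.P088.H292
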