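import Vale.Agent.P088.H833.D.Defs
import Vale.Agent.P088.H292.CPush

/-!
# P088, theorem D, row D_QB: the bound of `q = div (t ∇φ₂) / φ₂`
-/

open MeasureTheory Set
open scoped ContDiff Matrix

noncomputable section

namespace Vale.Agent.P088.H292.QB

open Vale.Agent.P088.LR Vale.Agent.P088.LR.CF Vale.Agent.P088.LR.CC Vale.Agent.P088.LR.CD
  Vale.Agent.P088.H292.CPs

variable {n : ℕ}

theorem cl_mulC {k : ℕ} {a b : ℝ} {f g : V n → ℂ} (hf : ContDiff ℝ ∞ f) (hg : ContDiff ℝ ∞ g)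
    (h1 : Cl k a f) (h2 : Cl k b g) : Cl k (2 ^ k * (a * b)) (fun y => f y * g y) := by
  intro l hl x
  have ha : 0 ≤ a := (norm_nonneg _).trans (h1 0 (Nat.zero_le _) 0)
  have hb : 0 ≤ b := (norm_nonneg _).trans (h2 0 (Nat.zero_le _) 0)
  refine (norm_iteratedFDeriv_mul_le (N := ∞) hf hg x
    (by exact_mod_cast le_top)).trans ?_
  calc ∑ i ∈ Finset.range (l + 1), (l.choose i : ℝ) * ‖iteratedFDeriv ℝ i f x‖ *
        ‖iteratedFDeriv ℝ (l - i) g x‖
      ≤ ∑ i ∈ Finset.range (l + 1), (l.choose i : ℝ) * a * b := by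
        refine Finset.sum_le_sum fun i hi => ?_
        have hi' : i ≤ l := Nat.lt_succ_iff.1 (Finset.mem_range.1 hi)
        have g1 := h1 i (hi'.trans hl) x
        have g2 := h2 (l - i) ((Nat.sub_le _ _).trans hl) x
        gcongr
    _ = 2 ^ l * (a * b) := by
        rw [← Nat.cast_two, ← Nat.cast_pow, ← Nat.sum_range_choose, Nat.cast_sum, Finset.sum_mul]
        refine Finset.sum_congr rfl fun i _ => ?_
        ring
    _ ≤ 2 ^ k * (a * b) := by
        have h3 : (2 : ℝ) ^ l ≤ 2 ^ k := pow_le_pow_right₀ (by norm_num) hl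
        have : 0 ≤ a * b := mul_nonneg ha hb
        gcongr

theorem cl_constC {k : ℕ} {c : ℂ} {b : ℝ} (h : ‖c‖ ≤ b) : Cl k b (fun _ : V n => c) := by
  intro l _ x
  rcases Nat.eq_zero_or_pos l with rfl | hl
  · rw [norm_iteratedFDeriv_zero]
    exact h
  · rw [iteratedFDeriv_const_of_ne (by omega)]
    simp only [Pi.zero_apply, norm_zero]
    exact (norm_nonneg _).trans h

theorem cl_sumC {ι : Type*} (s : Finset ι) {k : ℕ} {a : ℝ} {f : ι → V n → ℂ}
    (hf : ∀ j, ContDiff ℝ ∞ (f j)) (h : ∀ j, Cl k a (f j)) :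
    Cl k (s.card * a) (fun y => ∑ j ∈ s, f j y) := by
  classical
  induction s using Finset.induction_on with
  | empty => simpa using cl_constC (n := n) (k := k) (c := 0) (b := 0) (by simp)
  | insert j s hj ih =>
    have e : (fun y => ∑ i ∈ insert j s, f i y) = fun y => f j y + ∑ i ∈ s, f i y := by
      funext y
      rw [Finset.sum_insert hj]
    rw [e, Finset.card_insert_of_notMem hj]
    have := H607.cl_add607 (hf j) (ContDiff.sum fun i _ => hf i) (h j) ih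
    refine cl_le this (le_of_eq ?_)
    push_cast
    ring

theorem cl_pdF {F : Type*} [NormedAddCommGroup F] [NormedSpace ℝ F] {k : ℕ} {δ : ℝ} {f : V n → F}
    (hf : ContDiff ℝ ∞ f) (h : Cl (k + 1) δ f) (i : Fin n) : Cl k δ (pd i f) := by
  intro l hl x
  let L : (V n →L[ℝ] F) →L[ℝ] F := ContinuousLinearMap.apply ℝ F (Pi.single i (1 : ℝ))
  have hL : ‖L‖ ≤ 1 := by
    refine ContinuousLinearMap.opNorm_le_bound _ zero_le_one fun T => ?_
    have h1 : L T = T (Pi.single i 1) := rfl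
    rw [h1, one_mul]
    refine (T.le_opNorm _).trans ?_
    rw [Pi.norm_single, norm_one, mul_one]
  have h2 : pd i f = L ∘ fderiv ℝ f := rfl
  rw [h2]
  have hfd : ContDiff ℝ ∞ (fderiv ℝ f) := hf.fderiv_right (by simp)
  refine (ContinuousLinearMap.norm_iteratedFDeriv_comp_left L hfd.contDiffAt
    (by exact_mod_cast le_top)).trans ?_
  rw [norm_iteratedFDeriv_fderiv]
  calc ‖L‖ * ‖iteratedFDeriv ℝ (l + 1) f x‖ ≤ 1 * ‖iteratedFDeriv ℝ (l + 1) f x‖ :=
        mul_le_mul_of_nonneg_right hL (norm_nonneg _)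
    _ ≤ δ := by rw [one_mul]; exact h (l + 1) (by omega) x

theorem contDiff_pdF {F : Type*} [NormedAddCommGroup F] [NormedSpace ℝ F] {f : V n → F}
    (hf : ContDiff ℝ ∞ f) (j : Fin n) : ContDiff ℝ ∞ (pd j f) := by
  have hfd : ContDiff ℝ ∞ (fderiv ℝ f) := hf.fderiv_right (by simp)
  exact hfd.clm_apply contDiff_const

/-- Bound of `1 / f`. -/
theorem cl_inv (n k : ℕ) (B : ℝ) : ∃ C : ℝ, 0 ≤ C ∧ ∀ f : V n → ℝ, ContDiff ℝ ∞ f →
    (∀ x, 0 < f x) → (∀ x, (f x)⁻¹ ≤ B) → Cl k B f → Cl k C (fun x => (f x)⁻¹) := by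
  have hΨ : ContDiffOn ℝ ∞ (fun y : ℝ => y⁻¹) (Ioi 0) :=
    contDiffOn_id.inv fun y hy => ne_of_gt hy
  have ht : IsOpen (Ioi (0 : ℝ)) := isOpen_Ioi
  by_cases hB : 0 < B
  · have hsub : Icc B⁻¹ B ⊆ Ioi (0 : ℝ) := fun y hy => lt_of_lt_of_le (inv_pos.2 hB) hy.1
    have hCe : ∃ C : ℝ, 0 ≤ C ∧ ∀ i ≤ k, ∀ p ∈ Icc B⁻¹ B,
        ‖iteratedFDerivWithin ℝ i (fun y : ℝ => y⁻¹) (Ioi 0) p‖ ≤ C := by
      have h1 : ∀ i, ∃ C : ℝ, ∀ p ∈ Icc B⁻¹ B,
          ‖iteratedFDerivWithin ℝ i (fun y : ℝ => y⁻¹) (Ioi 0) p‖ ≤ C := fun i =>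
        isCompact_Icc.exists_bound_of_continuousOn
          ((hΨ.continuousOn_iteratedFDerivWithin (m := i) (by exact_mod_cast le_top)
            ht.uniqueDiffOn).mono hsub)
      choose C hC using h1
      refine ⟨∑ i ∈ Finset.range (k + 1), |C i|, by positivity, fun i hi p hp => ?_⟩
      refine (hC i p hp).trans ((le_abs_self _).trans ?_)
      exact Finset.single_le_sum (f := fun i => |C i|) (fun _ _ => abs_nonneg _)
        (Finset.mem_range.2 (by omega))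
    obtain ⟨C, hC0, hC⟩ := hCe
    refine ⟨k.factorial * C * (max 1 B) ^ k, by positivity, fun f hf hp hi hcl => ?_⟩
    have hft : ∀ x, f x ∈ Icc B⁻¹ B := by
      intro x
      constructor
      · rw [inv_le_comm₀ hB (hp x)]
        exact hi x
      · have h1 := hcl 0 (Nat.zero_le _) x
        rw [norm_iteratedFDeriv_zero] at h1
        exact (le_abs_self _).trans h1
    have hrange : Set.range f ⊆ Ioi 0 := by rintro _ ⟨x, rfl⟩; exact hp x
    intro l hl x
    have h1D : (1 : ℝ) ≤ max 1 B := le_max_left _ _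
    have key : ‖iteratedFDeriv ℝ l ((fun y : ℝ => y⁻¹) ∘ f) x‖ ≤
        l.factorial * C * (max 1 B) ^ l := by
      refine norm_iteratedFDeriv_comp_le' hrange ht.uniqueDiffOn hΨ hf
        (by exact_mod_cast le_top) x (fun i hi => hC i (hi.trans hl) _ (hft x)) ?_
      intro i hi1 hi2
      refine (hcl i (hi2.trans hl) x).trans ?_
      calc B ≤ max 1 B := le_max_right _ _
        _ = (max 1 B) ^ 1 := (pow_one _).symm
        _ ≤ (max 1 B) ^ i := pow_le_pow_right₀ h1D hi1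
    refine key.trans ?_
    have h3 : (l.factorial : ℝ) ≤ k.factorial := by exact_mod_cast Nat.factorial_le hl
    have h4 : (max 1 B) ^ l ≤ (max 1 B) ^ k := pow_le_pow_right₀ h1D hl
    gcongr
  · refine ⟨0, le_rfl, fun f _ hp hi _ => ?_⟩
    exact absurd (lt_of_lt_of_le (inv_pos.2 (hp 0)) (hi 0)) hB

/-- **Row D_QB.** -/
theorem qbd : RowQBD := by
  intro n m B
  obtain ⟨C₁, hC₁, H₁⟩ := cl_inv n m B
  set A : ℝ := n * (n * (2 ^ (m + 1) * (2 * B))) with hA
  refine ⟨1 + |2 ^ m * (A * C₁)|, by linarith [abs_nonneg (2 ^ m * (A * C₁))], ?_⟩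
  intro φ₂ q t hφ ht hq heq hcφ hi hct
  have hφc : ContDiff ℝ ∞ (cx φ₂) := Complex.ofRealCLM.contDiff.comp hφ.1
  have hcR : Cl m B φ₂ := by
    have h1 := cl_clm hφc hcφ Complex.reCLM Complex.reCLM_norm.le
    exact fun l hl x => h1 l (by omega) x
  have h2 := H₁ φ₂ hφ.1 hφ.2 hi hcR
  have hsi : ContDiff ℝ ∞ fun x => (φ₂ x)⁻¹ := hφ.1.inv fun x => (hφ.2 x).ne'
  have h3 : Cl m C₁ (fun x => (((φ₂ x)⁻¹ : ℝ) : ℂ)) :=
    cl_clm hsi h2 Complex.ofRealCLM Complex.ofRealCLM_norm.le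
  have hsic : ContDiff ℝ ∞ fun x => (((φ₂ x)⁻¹ : ℝ) : ℂ) := Complex.ofRealCLM.contDiff.comp hsi
  -- the flux
  have htc : ∀ i j, ContDiff ℝ ∞ fun y => ((t y i j : ℝ) : ℂ) := fun i j =>
    Complex.ofRealCLM.contDiff.comp (ht i j)
  have hte : ∀ i j, Cl (m + 1) 2 (fun y => ((t y i j : ℝ) : ℂ)) := by
    intro i j
    have e : (fun y => ((t y i j : ℝ) : ℂ)) = fun y => ent t i j y +
        (((1 : Matrix (Fin n) (Fin n) ℝ) i j : ℝ) : ℂ) := by
      funext y
      unfold ent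
      push_cast
      ring
    rw [e]
    have hs : ContDiff ℝ ∞ (ent t i j) :=
      Complex.ofRealCLM.contDiff.comp ((ht i j).sub contDiff_const)
    have hc : ‖(((1 : Matrix (Fin n) (Fin n) ℝ) i j : ℝ) : ℂ)‖ ≤ 1 := by
      rw [Matrix.one_apply]
      split_ifs <;> simp
    refine cl_le (H607.cl_add607 hs contDiff_const (hct i j) (cl_constC hc)) ?_
    norm_num
  have hpd : ∀ j, ContDiff ℝ ∞ (pd j (cx φ₂)) := fun j => contDiff_pdF hφc j
  have hpc : ∀ j, Cl (m + 1) B (pd j (cx φ₂)) := fun j => cl_pdF hφc hcφ j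
  have hG : ∀ i, ContDiff ℝ ∞ fun y => ∑ j, (t y i j : ℂ) * pd j (cx φ₂) y := fun i =>
    ContDiff.sum fun j _ => (htc i j).mul (hpd j)
  have hGc : ∀ i, Cl (m + 1) (n * (2 ^ (m + 1) * (2 * B)))
      (fun y => ∑ j, (t y i j : ℂ) * pd j (cx φ₂) y) := by
    intro i
    have h4 := cl_sumC Finset.univ (fun j => (htc i j).mul (hpd j))
      (fun j => cl_mulC (htc i j) (hpd j) (hte i j) (hpc j))
    rw [Finset.card_univ, Fintype.card_fin] at h4
    exact h4
  have hD : Cl m A (fun x => dv t (cx φ₂) x) := by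
    have h4 := cl_sumC Finset.univ (fun i => contDiff_pdF (hG i) i)
      (fun i => cl_pdF (hG i) (hGc i) i)
    rw [Finset.card_univ, Fintype.card_fin] at h4
    exact h4
  have hDs : ContDiff ℝ ∞ fun x => dv t (cx φ₂) x :=
    ContDiff.sum fun i _ => contDiff_pdF (hG i) i
  have e : cx q = fun x => dv t (cx φ₂) x * (((φ₂ x)⁻¹ : ℝ) : ℂ) := by
    funext x
    have h6 : (φ₂ x : ℂ) ≠ 0 := by exact_mod_cast (hφ.2 x).ne'
    rw [heq x, Complex.ofReal_inv, mul_assoc, mul_inv_cancel₀ h6, mul_one]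
    rfl
  rw [e]
  refine cl_le (cl_mulC hDs hsic hD h3) ?_
  linarith [le_abs_self (2 ^ m * (A * C₁))]

end Vale.Agent.P088.H292.QB
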