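import Vale.Agent.P088.H589.KEnA
import Vale.Agent.P088.H738.G.Defs
import Vale.Agent.P088.H292.EC
import Vale.Agent.P088.H109.Hdy

/-!
# P088, theorem G, row G_EN: the energies of the limits of two sequences of pairs
-/

set_option linter.all false

open MeasureTheory Set Filter Topology
open scoped ContDiff Matrix

noncomputable section

namespace Vale.Agent.P088.H292.GEn

open Vale.Agent.P088.LR Vale.Agent.P088.LR.B Vale.Agent.P088.LR.CF Vale.Agent.P088.LR.U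
  Vale.Agent.P088.LR.H158 Vale.Agent.P088.LR.K Vale.Agent.P088.H292.UP Vale.Agent.P088.H589
  Vale.Agent.P088.H639

variable {n N : ℕ}

theorem sq_add_le {θ : ℝ} (hθ : 0 < θ) (p q : Fin n → Fin N → ℂ) :
    H589.sq (fun i => p i + q i) ≤ (1 + θ) * H589.sq p + (1 + 1 / θ) * H589.sq q := by
  unfold H589.sq
  rw [Finset.mul_sum, Finset.mul_sum, ← Finset.sum_add_distrib]
  refine Finset.sum_le_sum fun i _ => ?_
  rw [Finset.mul_sum, Finset.mul_sum, ← Finset.sum_add_distrib]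
  refine Finset.sum_le_sum fun l _ => ?_
  show ‖p i l + q i l‖ ^ 2 ≤ _
  have h1 := norm_add_le (p i l) (q i l)
  have h2 := pow_le_pow_left₀ (norm_nonneg _) h1 2
  have h4 : (1 + θ) * ‖p i l‖ ^ 2 + (1 + 1 / θ) * ‖q i l‖ ^ 2 - (‖p i l‖ + ‖q i l‖) ^ 2 =
      (θ * ‖p i l‖ - ‖q i l‖) ^ 2 / θ := by
    field_simp
    ring
  have h5 : 0 ≤ (θ * ‖p i l‖ - ‖q i l‖) ^ 2 / θ := by positivity
  linarith

/-- The square of the gradient. -/
def dsq (u : V n → Fin N → ℂ) (x : V n) : ℝ := H589.sq (fun i => pd i u x)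

/-- The square of the covariant gradient. -/
def csq (A : Cn n N) (u : V n → Fin N → ℂ) (x : V n) : ℝ := H589.sq (fun i => cd A i u x)

theorem dsq_nn (u : V n → Fin N → ℂ) (x : V n) : 0 ≤ dsq u x := sq_nn _

theorem csq_nn (A : Cn n N) (u : V n → Fin N → ℂ) (x : V n) : 0 ≤ csq A u x := sq_nn _

theorem cont_dsq {u : V n → Fin N → ℂ} (hu : ContDiff ℝ ∞ u) : Continuous (dsq u) := by
  unfold dsq H589.sq
  refine continuous_finsetSum _ fun i _ => continuous_finsetSum _ fun l _ => ?_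
  exact ((continuous_pi_iff.1 (H158.contDiff_pd hu i).continuous) l).norm.pow 2

theorem small {η : ℝ} (hη : 0 < η) (hη1 : η ≤ 1) {α : Fin n → Matrix (Fin N) (Fin N) ℂ}
    (hA : ∀ i a b, ‖α i a b‖ ≤ η) (u : Fin N → ℂ) :
    (1 + 1 / η) * H589.sq (fun i => α i *ᵥ u) ≤ 2 * n * N ^ 2 * η * s2 u := by
  have h1 := (sq_mv α u).trans (mul_le_mul_of_nonneg_right (m2_bd hA) (s2_nonneg u))
  have h2 : 0 ≤ 1 + 1 / η := by positivity
  refine (mul_le_mul_of_nonneg_left h1 h2).trans ?_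
  have h3 : (1 + 1 / η) * (n * N ^ 2 * η ^ 2 * s2 u) = (n * N ^ 2 * s2 u) * (η ^ 2 + η) := by
    field_simp
  rw [h3]
  have h4 : 0 ≤ n * N ^ 2 * s2 u := by
    have := s2_nonneg u
    positivity
  nlinarith [mul_nonneg h4 hη.le, mul_nonneg h4 (mul_nonneg hη.le (sub_nonneg.2 hη1))]

theorem dsq_le {η : ℝ} (hη : 0 < η) (hη1 : η ≤ 1) {A : Cn n N} {x : V n}
    (hA : ∀ i a b, ‖A i x a b‖ ≤ η) (u : V n → Fin N → ℂ) :
    dsq u x ≤ (1 + η) * csq A u x + 2 * n * N ^ 2 * η * s2 (u x) := by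
  have h1 := sq_add_le hη (fun i => cd A i u x) (fun i => (-A i x) *ᵥ u x)
  have h2 : (fun i => cd A i u x + (-A i x) *ᵥ u x) = fun i => pd i u x := by
    funext i
    unfold cd
    rw [Matrix.neg_mulVec]
    abel
  rw [h2] at h1
  have h3 := small hη hη1 (α := fun i => -A i x) (fun i a b => by
    rw [Matrix.neg_apply, norm_neg]; exact hA i a b) (u x)
  unfold dsq csq
  linarith

theorem csq_le {η : ℝ} (hη : 0 < η) (hη1 : η ≤ 1) {A : Cn n N} {x : V n}
    (hA : ∀ i a b, ‖A i x a b‖ ≤ η) (u : V n → Fin N → ℂ) :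
    csq A u x ≤ (1 + η) * dsq u x + 2 * n * N ^ 2 * η * s2 (u x) := by
  have h1 := sq_add_le hη (fun i => pd i u x) (fun i => A i x *ᵥ u x)
  have h3 := small hη hη1 (α := fun i => A i x) hA (u x)
  unfold dsq csq
  have h4 : H589.sq (fun i => cd A i u x) = H589.sq (fun i => pd i u x + A i x *ᵥ u x) := rfl
  rw [h4]
  linarith

theorem qf_near {s : Matrix (Fin n) (Fin n) ℝ} {y μ η : ℝ} (hμ : 0 < μ) (hy : μ ≤ y)
    (hη : 0 ≤ η) (h : ∀ i j, |s i j - (y • (1 : Matrix (Fin n) (Fin n) ℝ)) i j| ≤ η)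
    (q : Fin n → Fin N → ℂ) : (1 - n * η / μ) * (y * H589.sq q) ≤ (qf s q q).re ∧
      (qf s q q).re ≤ (1 + n * η / μ) * (y * H589.sq q) := by
  have h1 : qf s q q = qf (s - y • (1 : Matrix (Fin n) (Fin n) ℝ)) q q + (y : ℂ) * qf 1 q q := by
    unfold qf
    rw [Finset.mul_sum]
    simp only [← Finset.sum_add_distrib]
    refine Finset.sum_congr rfl fun i _ => ?_
    rw [Finset.mul_sum, ← Finset.sum_add_distrib]
    refine Finset.sum_congr rfl fun j _ => ?_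
    rw [Matrix.sub_apply, Matrix.smul_apply, smul_eq_mul]
    push_cast
    ring
  have nq := sq_nn q
  have h2 : ‖qf (s - y • (1 : Matrix (Fin n) (Fin n) ℝ)) q q‖ ≤ n * η * H589.sq q := by
    have h3 := qf_le (s - y • (1 : Matrix (Fin n) (Fin n) ℝ)) q q
    have h4 : f2 (s - y • (1 : Matrix (Fin n) (Fin n) ℝ)) ≤ (n * η) ^ 2 :=
      f2_bd fun i j => by rw [Matrix.sub_apply]; exact h i j
    refine (pow_le_pow_iff_left₀ (norm_nonneg _) (by positivity) two_ne_zero).1 ?_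
    refine h3.trans ?_
    have h5 : 0 ≤ H589.sq q * H589.sq q := mul_self_nonneg _
    calc _ ≤ (n * η) ^ 2 * (H589.sq q * H589.sq q) := mul_le_mul_of_nonneg_right h4 h5
      _ = (n * η * H589.sq q) ^ 2 := by ring
  have h3 : n * η * H589.sq q ≤ n * η / μ * (y * H589.sq q) := by
    have h4 : n * η * H589.sq q = n * η / μ * (μ * H589.sq q) := by field_simp
    rw [h4]
    refine mul_le_mul_of_nonneg_left (mul_le_mul_of_nonneg_right hy nq) (by positivity)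
  have h5 := Complex.abs_re_le_norm (qf (s - y • (1 : Matrix (Fin n) (Fin n) ℝ)) q q)
  have h6 := abs_le.1 (h5.trans h2)
  have h7 : (qf s q q).re = (qf (s - y • (1 : Matrix (Fin n) (Fin n) ℝ)) q q).re + y * H589.sq q := by
    rw [h1, qf_one, Complex.add_re, ← Complex.ofReal_mul, Complex.ofReal_re]
  constructor
  · rw [h7]; linarith [h6.1]
  · rw [h7]; linarith [h6.2]

/-- Poincaré for vector functions. -/
theorem poin {ρ : V n → ℝ} (hρ : Dom ρ) (j₀ : Fin n) (hb : Bornology.IsBounded (Om ρ))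
    {z : V n → Fin N → ℂ} (hz : ContDiff ℝ ∞ z) (h0 : ∀ x ∈ frontier (Om ρ), z x = 0) :
    ∫ x in Om ρ, s2 (z x) ≤ 4 * ∫ x in Om ρ, dsq z x := by
  have hzl : ∀ l, ContDiff ℝ ∞ fun x => z x l := fun l => contDiff_pi.1 hz l
  have hre : ∀ l, ContDiff ℝ ∞ fun x => (z x l).re := fun l =>
    Complex.reCLM.contDiff.comp (hzl l)
  have him : ∀ l, ContDiff ℝ ∞ fun x => (z x l).im := fun l =>
    Complex.imCLM.contDiff.comp (hzl l)
  have cr : ∀ l, Continuous fun x => (z x l).re ^ 2 := fun l => (hre l).continuous.pow 2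
  have ci : ∀ l, Continuous fun x => (z x l).im ^ 2 := fun l => (him l).continuous.pow 2
  have dr : ∀ l, Continuous fun x => ∑ j, pd j (fun y => (z y l).re) x ^ 2 := fun l =>
    continuous_finsetSum _ fun j _ => (H158.contDiff_pd (hre l) j).continuous.pow 2
  have di : ∀ l, Continuous fun x => ∑ j, pd j (fun y => (z y l).im) x ^ 2 := fun l =>
    continuous_finsetSum _ fun j _ => (H158.contDiff_pd (him l) j).continuous.pow 2
  have e1 : ∀ x, s2 (z x) = ∑ l, ((z x l).re ^ 2 + (z x l).im ^ 2) := by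
    intro x
    unfold s2
    refine Finset.sum_congr rfl fun l _ => ?_
    rw [← Complex.normSq_eq_norm_sq, Complex.normSq_apply]
    ring
  have e2 : ∀ x, dsq z x = ∑ l, (∑ j, pd j (fun y => (z y l).re) x ^ 2 +
      ∑ j, pd j (fun y => (z y l).im) x ^ 2) := by
    intro x
    unfold dsq H589.sq
    rw [Finset.sum_comm]
    refine Finset.sum_congr rfl fun l _ => ?_
    rw [← Finset.sum_add_distrib]
    refine Finset.sum_congr rfl fun j _ => ?_
    have h1 : pd j z x l = pd j (fun y => z y l) x := H158.pd_pi (dfa hz x) j l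
    have h2 : pd j (fun y => (z y l).re) x = (pd j (fun y => z y l) x).re :=
      pd_rp ((hzl l).differentiable (by simp) x) j
    have h3 : pd j (fun y => (z y l).im) x = (pd j (fun y => z y l) x).im :=
      pd_mp ((hzl l).differentiable (by simp) x) j
    show ‖pd j z x l‖ ^ 2 = _
    rw [h1, h2, h3, ← Complex.normSq_eq_norm_sq, Complex.normSq_apply]
    ring
  simp only [e1, e2]
  have k1 : ∀ l ∈ (Finset.univ : Finset (Fin N)), Integrable
      (fun x => (z x l).re ^ 2 + (z x l).im ^ 2) (volume.restrict (Om ρ)) := fun l _ =>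
    intR hb ((cr l).add (ci l))
  have k2 : ∀ l ∈ (Finset.univ : Finset (Fin N)), Integrable
      (fun x => ∑ j, pd j (fun y => (z y l).re) x ^ 2 + ∑ j, pd j (fun y => (z y l).im) x ^ 2)
        (volume.restrict (Om ρ)) := fun l _ => intR hb ((dr l).add (di l))
  rw [integral_finsetSum _ k1, integral_finsetSum _ k2, Finset.mul_sum]
  refine Finset.sum_le_sum fun l _ => ?_
  rw [integral_add (intR hb (cr l)) (intR hb (ci l)),
    integral_add (intR hb (dr l)) (intR hb (di l)), mul_add]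
  refine add_le_add ?_ ?_
  · exact H109.Hdy.poincare hρ j₀ (hre l) fun x hx => by rw [h0 x hx]; rfl
  · exact H109.Hdy.poincare hρ j₀ (him l) fun x hx => by rw [h0 x hx]; rfl

/-- Solutions have the least energy. -/
theorem minim {Ω : Set (V n)} (hO : IsOpen Ω) (hb : Bornology.IsBounded Ω) {s : MF n}
    (hs : SmM s) (hsym : ∀ x, (s x).IsSymm) {A : Cn n N} (hA : SmU A)
    {u w : V n → Fin N → ℂ} (hu : ContDiff ℝ ∞ u) (hw : ContDiff ℝ ∞ w)
    (hl : ∀ x ∈ Ω, lav s A u x = 0) (huw : ∀ x ∈ frontier Ω, u x = w x)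
    (hp : ∀ x ∈ Ω, ∀ q : Fin n → Fin N → ℂ, 0 ≤ (qf (s x) q q).re) :
    (ea Ω s A u u).re ≤ (ea Ω s A w w).re := by
  set φ : V n → Fin N → ℂ := fun x => w x - u x with hφ
  have sφ : ContDiff ℝ ∞ φ := hw.sub hu
  have h0 : ∀ x ∈ frontier Ω, φ x = 0 := fun x hx => by
    rw [hφ]
    show w x - u x = 0
    rw [huw x hx, sub_self]
  have a1 : ea Ω s A φ φ = ea Ω s A φ w - ea Ω s A φ u := ea_sub_right hb hs hA sφ hw hu
  have a2 : ea Ω s A φ u = 0 := wk2 hO hb hs hsym hA hu sφ hl h0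
  have a3 : ea Ω s A φ w = ea Ω s A w w - ea Ω s A u w := ea_sub_left hb hs hA hw hu hw
  have a4 : ea Ω s A u φ = ea Ω s A u w - ea Ω s A u u := ea_sub_right hb hs hA hu hw hu
  have a5 : ea Ω s A u φ = 0 := wk1 hO hb hs hsym hA hu sφ hl h0
  have a6 : ea Ω s A φ φ = ea Ω s A w w - ea Ω s A u u := by
    rw [a5] at a4
    rw [a1, a2, a3]
    linear_combination (1 : ℂ) * a4
  have c1 := qf_cont' hs hA sφ sφ
  have h1 : (ea Ω s A φ φ).re = ∫ x in Ω,
      (qf (s x) (fun i => cd A i φ x) (fun i => cd A i φ x)).re := by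
    rw [ea_eq]
    exact (integral_re (𝕜 := ℂ) (intOn hb c1)).symm
  have h2 : 0 ≤ (ea Ω s A φ φ).re := by
    rw [h1]
    exact setIntegral_nonneg hO.measurableSet fun x hx => hp x hx _
  rw [a6, Complex.sub_re] at h2
  linarith

theorem sq2 (p q : Fin n → Fin N → ℂ) :
    H589.sq (fun i => p i - q i) ≤ 2 * H589.sq p + 2 * H589.sq q := by
  have h1 := sq_add_le one_pos p (fun i => -q i)
  have h2 : (fun i => p i + -q i) = fun i => p i - q i := by
    funext i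
    rw [sub_eq_add_neg]
  have h3 : H589.sq (fun i => -q i) = H589.sq q := by
    unfold H589.sq
    simp
  rw [h2, h3] at h1
  norm_num at h1
  linarith

theorem s2_le (a b : Fin N → ℂ) : s2 a ≤ 2 * s2 (a - b) + 2 * s2 b := by
  unfold s2
  rw [Finset.mul_sum, Finset.mul_sum, ← Finset.sum_add_distrib]
  refine Finset.sum_le_sum fun l _ => ?_
  have h1 : ‖a l‖ ≤ ‖(a - b) l‖ + ‖b l‖ := by
    have := norm_add_le ((a - b) l) (b l)
    simpa using this
  nlinarith [norm_nonneg (a l), norm_nonneg ((a-b) l), norm_nonneg (b l),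
    sq_nonneg (‖(a - b) l‖ - ‖b l‖), pow_le_pow_left₀ (norm_nonneg _) h1 2]

/-- One pair near `(ψ, 0)` with a solution `u` and an arbitrary `w` with the same boundary
values. -/
structure Nr (Ω : Set (V n)) (ψ : V n → ℝ) (η : ℝ) (w : V n → Fin N → ℂ) (s : MF n)
    (A : Cn n N) (u : V n → Fin N → ℂ) : Prop where
  hs : SmM s
  hsym : ∀ x, (s x).IsSymm
  hA : SmU A
  near : ∀ x ∈ Ω, ∀ i j, |s x i j - sc ψ x i j| ≤ η
  small : ∀ x ∈ Ω, ∀ i a b, ‖A i x a b‖ ≤ η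
  hu : ContDiff ℝ ∞ u
  bd : ∀ x ∈ frontier Ω, u x = w x
  sol : ∀ x ∈ Ω, lav s A u x = 0

/-- The energy from above. -/
theorem up {Ω : Set (V n)} (hO : IsOpen Ω) (hb : Bornology.IsBounded Ω) {ψ : V n → ℝ}
    (hψ : Continuous ψ) {μ Ψ η : ℝ} (hμ : 0 < μ) (hψμ : ∀ x ∈ Ω, μ ≤ ψ x)
    (hΨ : ∀ x ∈ Ω, ψ x ≤ Ψ) (hη : 0 < η) (hη1 : η ≤ 1) (hημ : n * η ≤ μ)
    {w u : V n → Fin N → ℂ} {s : MF n} {A : Cn n N} (hw : ContDiff ℝ ∞ w)
    (h : Nr Ω ψ η w s A u) : (ea Ω s A u u).re ≤ (1 + n * η / μ) *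
      ((1 + η) * (∫ x in Ω, ψ x * dsq w x) + 2 * n * N ^ 2 * η * Ψ * ∫ x in Ω, s2 (w x)) := by
  have hd : n * η / μ ≤ 1 := (div_le_one hμ).2 hημ
  have nr : ∀ x ∈ Ω, ∀ i j, |s x i j - (ψ x • (1 : Matrix (Fin n) (Fin n) ℝ)) i j| ≤ η := h.near
  have psd : ∀ x ∈ Ω, ∀ q : Fin n → Fin N → ℂ, 0 ≤ (qf (s x) q q).re := fun x hx q =>
    le_trans (mul_nonneg (by linarith) (mul_nonneg (hμ.le.trans (hψμ x hx)) (sq_nn q)))
      (qf_near hμ (hψμ x hx) hη.le (nr x hx) q).1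
  refine (minim hO hb h.hs h.hsym h.hA h.hu hw h.sol h.bd psd).trans ?_
  have c1 := qf_cont' h.hs h.hA hw hw
  have h1 : (ea Ω s A w w).re = ∫ x in Ω,
      (qf (s x) (fun i => cd A i w x) (fun i => cd A i w x)).re := by
    rw [ea_eq]
    exact (integral_re (𝕜 := ℂ) (intOn hb c1)).symm
  have c2 : Continuous fun x => (1 + η) * (ψ x * dsq w x) := (hψ.mul (cont_dsq hw)).const_mul _
  have c3 : Continuous fun x => 2 * n * N ^ 2 * η * Ψ * s2 (w x) := (cont_s2 hw).const_mul _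
  have i2 : Integrable (fun x => (1 + η) * (ψ x * dsq w x)) (volume.restrict Ω) := intR hb c2
  have i3 : Integrable (fun x => 2 * n * N ^ 2 * η * Ψ * s2 (w x)) (volume.restrict Ω) :=
    intR hb c3
  rw [h1, ← integral_const_mul (1 + η), ← integral_const_mul (2 * n * N ^ 2 * η * Ψ),
    ← integral_add i2 i3, ← integral_const_mul]
  refine setIntegral_mono_on (intR hb (Complex.continuous_re.comp c1))
    (intR hb (continuous_const.mul (c2.add c3))) hO.measurableSet fun x hx => ?_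
  refine (qf_near hμ (hψμ x hx) hη.le (nr x hx) _).2.trans ?_
  have y0 : 0 ≤ ψ x := hμ.le.trans (hψμ x hx)
  have k1 := mul_le_mul_of_nonneg_left (csq_le hη hη1 (h.small x hx) w) y0
  have k2 : ψ x * (2 * n * N ^ 2 * η * s2 (w x)) ≤ Ψ * (2 * n * N ^ 2 * η * s2 (w x)) := by
    refine mul_le_mul_of_nonneg_right (hΨ x hx) ?_
    have := s2_nonneg (w x)
    positivity
  have k3 : 0 ≤ 1 + n * η / μ := by positivity
  refine mul_le_mul_of_nonneg_left ?_ k3
  unfold csq at k1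
  linarith

/-- The energy from below. -/
theorem low {ρ : V n → ℝ} (hρ : Dom ρ) (j₀ : Fin n) (hO : IsOpen (Om ρ))
    (hb : Bornology.IsBounded (Om ρ)) {ψ : V n → ℝ}
    (hψ : Continuous ψ) {μ Ψ η : ℝ} (hμ : 0 < μ) (hψμ : ∀ x ∈ Om ρ, μ ≤ ψ x)
    (hΨ : ∀ x ∈ Om ρ, ψ x ≤ Ψ) (hΨ0 : 0 ≤ Ψ) (hη : 0 < η) (hη1 : η ≤ 1) (hημ : n * η ≤ μ)
    {w u : V n → Fin N → ℂ} {s : MF n} {A : Cn n N} (hw : ContDiff ℝ ∞ w)
    (h : Nr (Om ρ) ψ η w s A u) :
    (1 - n * η / μ) * (1 - 32 * n * N ^ 2 * Ψ / μ * η) * (∫ x in Om ρ, ψ x * dsq u x) ≤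
      (1 + η) * (ea (Om ρ) s A u u).re + 2 * n * N ^ 2 * Ψ *
        (16 * (∫ x in Om ρ, dsq w x) + 2 * ∫ x in Om ρ, s2 (w x)) * η := by
  have hd : n * η / μ ≤ 1 := (div_le_one hμ).2 hημ
  have hd0 : 0 ≤ n * η / μ := by positivity
  have nr : ∀ x ∈ Om ρ, ∀ i j, |s x i j - (ψ x • (1 : Matrix (Fin n) (Fin n) ℝ)) i j| ≤ η :=
    h.near
  have hu := h.hu
  -- the four integrals
  have cX : Continuous fun x => ψ x * dsq u x := hψ.mul (cont_dsq hu)
  have cP : Continuous fun x => ψ x * csq A u x := hψ.mul (cont_sq h.hA hu)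
  have cM : Continuous fun x => s2 (u x) := cont_s2 hu
  have iX : Integrable (fun x => ψ x * dsq u x) (volume.restrict (Om ρ)) := intR hb cX
  have iP : Integrable (fun x => ψ x * csq A u x) (volume.restrict (Om ρ)) := intR hb cP
  have iM : Integrable (fun x => s2 (u x)) (volume.restrict (Om ρ)) := intR hb cM
  have iD : Integrable (fun x => dsq u x) (volume.restrict (Om ρ)) := intR hb (cont_dsq hu)
  have iDw : Integrable (fun x => dsq w x) (volume.restrict (Om ρ)) := intR hb (cont_dsq hw)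
  have iMw : Integrable (fun x => s2 (w x)) (volume.restrict (Om ρ)) := intR hb (cont_s2 hw)
  set X := ∫ x in Om ρ, ψ x * dsq u x with hX
  set P := ∫ x in Om ρ, ψ x * csq A u x with hP
  set M := ∫ x in Om ρ, s2 (u x) with hM
  set D := ∫ x in Om ρ, dsq u x with hD
  set Dw := ∫ x in Om ρ, dsq w x with hDw
  set Mw := ∫ x in Om ρ, s2 (w x) with hMw
  -- (a)
  have a : X ≤ (1 + η) * P + 2 * n * N ^ 2 * η * Ψ * M := by
    rw [hP, hM, ← integral_const_mul, ← integral_const_mul,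
      ← integral_add (iP.const_mul _) (iM.const_mul _)]
    refine setIntegral_mono_on iX ((iP.const_mul _).add (iM.const_mul _)) hO.measurableSet
      fun x hx => ?_
    have y0 : 0 ≤ ψ x := hμ.le.trans (hψμ x hx)
    have k1 := mul_le_mul_of_nonneg_left (dsq_le hη hη1 (h.small x hx) u) y0
    have k2 : ψ x * (2 * n * N ^ 2 * η * s2 (u x)) ≤ Ψ * (2 * n * N ^ 2 * η * s2 (u x)) := by
      refine mul_le_mul_of_nonneg_right (hΨ x hx) ?_
      have := s2_nonneg (u x)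
      positivity
    show ψ x * dsq u x ≤ (1 + η) * (ψ x * csq A u x) + 2 * n * N ^ 2 * η * Ψ * s2 (u x)
    linarith
  -- (b)
  have b : (1 - n * η / μ) * P ≤ (ea (Om ρ) s A u u).re := by
    have c1 := qf_cont' h.hs h.hA hu hu
    have h1 : (ea (Om ρ) s A u u).re = ∫ x in Om ρ,
        (qf (s x) (fun i => cd A i u x) (fun i => cd A i u x)).re := by
      rw [ea_eq]
      exact (integral_re (𝕜 := ℂ) (intOn hb c1)).symm
    rw [h1, hP, ← integral_const_mul]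
    refine setIntegral_mono_on (iP.const_mul _) (intR hb (Complex.continuous_re.comp c1))
      hO.measurableSet fun x hx => ?_
    exact (qf_near hμ (hψμ x hx) hη.le (nr x hx) _).1
  -- (c)
  have c : M ≤ 16 * D + (16 * Dw + 2 * Mw) := by
    have hz : ContDiff ℝ ∞ fun x => u x - w x := hu.sub hw
    have h0 : ∀ x ∈ frontier (Om ρ), (fun x => u x - w x) x = 0 := fun x hx => by
      show u x - w x = 0
      rw [h.bd x hx, sub_self]
    have k1 := poin hρ j₀ hb hz h0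
    have iz : Integrable (fun x => s2 (u x - w x)) (volume.restrict (Om ρ)) :=
      intR hb (cont_s2 hz)
    have izd : Integrable (fun x => dsq (fun x => u x - w x) x) (volume.restrict (Om ρ)) :=
      intR hb (cont_dsq hz)
    have k2 : M ≤ 2 * (∫ x in Om ρ, s2 (u x - w x)) + 2 * Mw := by
      rw [hM, hMw, ← integral_const_mul, ← integral_const_mul,
        ← integral_add (iz.const_mul _) (iMw.const_mul _)]
      exact integral_mono iM ((iz.const_mul _).add (iMw.const_mul _)) fun x => s2_le _ _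
    have k3 : ∫ x in Om ρ, dsq (fun x => u x - w x) x ≤ 2 * D + 2 * Dw := by
      rw [hD, hDw, ← integral_const_mul, ← integral_const_mul,
        ← integral_add (iD.const_mul _) (iDw.const_mul _)]
      refine integral_mono izd ((iD.const_mul _).add (iDw.const_mul _)) fun x => ?_
      have e : dsq (fun x => u x - w x) x = H589.sq (fun i => pd i u x - pd i w x) := by
        unfold dsq
        congr 1
        funext i
        exact H158.pd_sub (hu.differentiable (by simp) x) (hw.differentiable (by simp) x) i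
      show dsq (fun x => u x - w x) x ≤ _
      rw [e]
      exact sq2 _ _
    linarith
  have d : D ≤ X / μ := by
    rw [le_div_iff₀ hμ, mul_comm, hD, ← integral_const_mul]
    refine setIntegral_mono_on (iD.const_mul _) iX hO.measurableSet fun x hx => ?_
    exact mul_le_mul_of_nonneg_right (hψμ x hx) (dsq_nn u x)
  have K0 : 0 ≤ 16 * Dw + 2 * Mw := by
    have e1 : 0 ≤ Dw := integral_nonneg fun x => dsq_nn w x
    have e2 : 0 ≤ Mw := integral_nonneg fun x => s2_nonneg (w x)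
    linarith
  have e0 : 0 ≤ 2 * n * N ^ 2 * η * Ψ := by positivity
  have e1 : 0 ≤ 1 - n * η / μ := by linarith
  have e2 : X ≤ (1 + η) * P + 2 * n * N ^ 2 * η * Ψ * (16 * (X / μ) + (16 * Dw + 2 * Mw)) := by
    refine a.trans (add_le_add le_rfl (mul_le_mul_of_nonneg_left ?_ e0))
    linarith
  have e3 : (1 - 32 * n * N ^ 2 * Ψ / μ * η) * X ≤ (1 + η) * P +
      2 * n * N ^ 2 * η * Ψ * (16 * Dw + 2 * Mw) := by
    have : (1 - 32 * n * N ^ 2 * Ψ / μ * η) * X = X - 2 * n * N ^ 2 * η * Ψ * (16 * (X / μ)) := by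
      ring
    rw [this]
    linarith
  have e4 := mul_le_mul_of_nonneg_left e3 e1
  have e5 : (1 - n * η / μ) * (2 * n * N ^ 2 * η * Ψ * (16 * Dw + 2 * Mw)) ≤
      2 * n * N ^ 2 * η * Ψ * (16 * Dw + 2 * Mw) :=
    mul_le_of_le_one_left (mul_nonneg e0 K0) (by linarith)
  have e6 : (1 + η) * ((1 - n * η / μ) * P) ≤ (1 + η) * (ea (Om ρ) s A u u).re :=
    mul_le_mul_of_nonneg_left b (by linarith)
  calc (1 - n * η / μ) * (1 - 32 * n * N ^ 2 * Ψ / μ * η) * X =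
        (1 - n * η / μ) * ((1 - 32 * n * N ^ 2 * Ψ / μ * η) * X) := by ring
    _ ≤ (1 - n * η / μ) * ((1 + η) * P + 2 * n * N ^ 2 * η * Ψ * (16 * Dw + 2 * Mw)) := e4
    _ = (1 + η) * ((1 - n * η / μ) * P) +
        (1 - n * η / μ) * (2 * n * N ^ 2 * η * Ψ * (16 * Dw + 2 * Mw)) := by ring
    _ ≤ (1 + η) * (ea (Om ρ) s A u u).re + 2 * n * N ^ 2 * η * Ψ * (16 * Dw + 2 * Mw) :=
        add_le_add e6 e5
    _ = _ := by ring

/-- The scalar function `h` in the component `l₀`. -/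
def emb (l₀ : Fin N) (h : V n → ℝ) : V n → Fin N → ℂ := fun x l => if l = l₀ then (h x : ℂ) else 0

theorem emb_sm (l₀ : Fin N) {h : V n → ℝ} (hh : ContDiff ℝ ∞ h) : ContDiff ℝ ∞ (emb l₀ h) := by
  refine contDiff_pi.2 fun l => ?_
  unfold emb
  by_cases hl : l = l₀
  · simp only [hl, if_true]
    exact Complex.ofRealCLM.contDiff.comp hh
  · simp only [hl, if_false]
    exact contDiff_const

theorem emb_dsq (l₀ : Fin N) {h : V n → ℝ} (hh : ContDiff ℝ ∞ h) (x : V n) :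
    dsq (emb l₀ h) x = ∑ i, (pd i h x) ^ 2 := by
  unfold dsq H589.sq
  refine Finset.sum_congr rfl fun i _ => ?_
  rw [Finset.sum_eq_single l₀]
  · have h1 : pd i (emb l₀ h) x l₀ = pd i (fun y => emb l₀ h y l₀) x :=
      H158.pd_pi (dfa (emb_sm l₀ hh) x) i l₀
    have h2 : (fun y => emb l₀ h y l₀) = oc h := by
      funext y
      simp [emb]
    show ‖pd i (emb l₀ h) x l₀‖ ^ 2 = _
    rw [h1, h2, pd_oc hh, Complex.norm_real, Real.norm_eq_abs, sq_abs]
  · intro l _ hl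
    have h1 : pd i (emb l₀ h) x l = pd i (fun y => emb l₀ h y l) x :=
      H158.pd_pi (dfa (emb_sm l₀ hh) x) i l
    have h2 : (fun y => emb l₀ h y l) = fun _ => (0 : ℂ) := by
      funext y
      simp [emb, hl]
    have h3 : pd i (fun _ : V n => (0 : ℂ)) x = 0 := by
      unfold pd
      simp
    show ‖pd i (emb l₀ h) x l‖ ^ 2 = _
    rw [h1, h2, h3]
    simp
  · intro h'
    exact absurd (Finset.mem_univ _) h'

theorem rb_sc (Ω : Set (V n)) (ψ : V n → ℝ) (u : V n → ℝ) :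
    rb Ω (sc ψ) u u = ∫ x in Ω, ψ x * ∑ i, (pd i u x) ^ 2 := by
  unfold rb
  congr 1
  funext x
  exact EC.quad_sc ψ x fun i => pd i u x

/-- The inequality in one direction. -/
theorem half {ρ : V n → ℝ} (hρ : Dom ρ) (j₀ : Fin n) (l₀ : Fin N) (hO : IsOpen (Om ρ))
    (hb : Bornology.IsBounded (Om ρ)) {ψ₁ ψ₂ : V n → ℝ} (hψ₁ : ContDiff ℝ ∞ ψ₁)
    (hψ₂ : ContDiff ℝ ∞ ψ₂) {μ : ℝ} (hμ : 0 < μ) (hm₁ : ∀ x ∈ Om ρ, μ ≤ ψ₁ x)
    (hm₂ : ∀ x ∈ Om ρ, μ ≤ ψ₂ x)
    (hd : ∀ η > 0, ∀ w : V n → Fin N → ℂ, ContDiff ℝ ∞ w → ∃ (s t : MF n) (A B : Cn n N)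
      (u v : V n → Fin N → ℂ), Nr (Om ρ) ψ₁ η w s A u ∧ Nr (Om ρ) ψ₂ η w t B v ∧
        ea (Om ρ) s A u u = ea (Om ρ) t B v v) {f : V n → ℝ} (hf : ContDiff ℝ ∞ f) :
    En (Om ρ) (sc ψ₁) f ≤ En (Om ρ) (sc ψ₂) f := by
  have rb0 : ∀ u : V n → ℝ, 0 ≤ rb (Om ρ) (sc ψ₁) u u := by
    intro u
    rw [rb_sc]
    refine setIntegral_nonneg hO.measurableSet fun x hx => ?_
    exact mul_nonneg (hμ.le.trans (hm₁ x hx)) (Finset.sum_nonneg fun i _ => sq_nonneg _)
  have bt : BddBelow {e | ∃ u : V n → ℝ, ContDiff ℝ ∞ u ∧ (∀ x ∈ frontier (Om ρ), u x = f x) ∧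
      e = rb (Om ρ) (sc ψ₁) u u} := ⟨0, by rintro e ⟨u, hu, _, rfl⟩; exact rb0 u⟩
  refine le_csInf ⟨_, f, hf, fun _ _ => rfl, rfl⟩ ?_
  rintro e ⟨h, hh, hhf, rfl⟩
  -- upper bounds of `ψᵢ`
  obtain ⟨Ψ₁, hΨ₁⟩ := (hb.isCompact_closure.bddAbove_image hψ₁.continuous.continuousOn :
    BddAbove (ψ₁ '' closure (Om ρ)))
  obtain ⟨Ψ₂, hΨ₂⟩ := (hb.isCompact_closure.bddAbove_image hψ₂.continuous.continuousOn :
    BddAbove (ψ₂ '' closure (Om ρ)))
  have b₁ : ∀ x ∈ Om ρ, ψ₁ x ≤ max Ψ₁ 0 := fun x hx =>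
    (hΨ₁ ⟨x, subset_closure hx, rfl⟩).trans (le_max_left _ _)
  have b₂ : ∀ x ∈ Om ρ, ψ₂ x ≤ max Ψ₂ 0 := fun x hx =>
    (hΨ₂ ⟨x, subset_closure hx, rfl⟩).trans (le_max_left _ _)
  set P₁ := max Ψ₁ 0 with hP₁
  set P₂ := max Ψ₂ 0 with hP₂
  have P₁0 : 0 ≤ P₁ := le_max_right _ _
  set w := emb l₀ h with hw
  have sw : ContDiff ℝ ∞ w := emb_sm l₀ hh
  set b := rb (Om ρ) (sc ψ₂) h h with hbb
  have eb : ∫ x in Om ρ, ψ₂ x * dsq w x = b := by
    rw [hbb, rb_sc]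
    congr 1
    funext x
    rw [hw, emb_dsq l₀ hh]
  set a := En (Om ρ) (sc ψ₁) f with ha
  set Dw := ∫ x in Om ρ, dsq w x with hDw
  set Mw := ∫ x in Om ρ, s2 (w x) with hMw
  -- the inequality for `η`
  have key : ∀ η : ℝ, 0 < η → η ≤ 1 → n * η ≤ μ → 32 * n * N ^ 2 * P₁ / μ * η ≤ 1 →
      (1 - n * η / μ) * (1 - 32 * n * N ^ 2 * P₁ / μ * η) * a ≤
        (1 + η) * ((1 + n * η / μ) * ((1 + η) * b + 2 * n * N ^ 2 * η * P₂ * Mw)) +
          2 * n * N ^ 2 * P₁ * (16 * Dw + 2 * Mw) * η := by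
    intro η hη hη1 hημ hη2
    obtain ⟨s, t, A, B, u, v, hu, hv, huv⟩ := hd η hη w sw
    have k1 := low hρ j₀ hO hb hψ₁.continuous hμ hm₁ b₁ P₁0 hη hη1 hημ sw hu
    have k2 := up hO hb hψ₂.continuous hμ hm₂ b₂ hη hη1 hημ sw hv
    rw [eb] at k2
    rw [huv] at k1
    have k3 : a ≤ ∫ x in Om ρ, ψ₁ x * dsq u x := by
      have hul : ContDiff ℝ ∞ fun x => u x l₀ := contDiff_pi.1 hu.hu l₀
      have r1 : ContDiff ℝ ∞ (rp fun x => u x l₀) := rp_contDiff hul
      have r2 : a ≤ rb (Om ρ) (sc ψ₁) (rp fun x => u x l₀) (rp fun x => u x l₀) := by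
        refine csInf_le bt ⟨_, r1, fun x hx => ?_, rfl⟩
        show (u x l₀).re = f x
        rw [hu.bd x hx, hw, ← hhf x hx]
        simp [emb]
      refine r2.trans ?_
      rw [rb_sc]
      have c1 : Continuous fun x => ψ₁ x * ∑ i, (pd i (rp fun x => u x l₀) x) ^ 2 :=
        hψ₁.continuous.mul (continuous_finsetSum _ fun i _ =>
          (H158.contDiff_pd r1 i).continuous.pow 2)
      refine setIntegral_mono_on (intR hb c1) (intR hb (hψ₁.continuous.mul (cont_dsq hu.hu)))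
        hO.measurableSet fun x hx => ?_
      refine mul_le_mul_of_nonneg_left ?_ (hμ.le.trans (hm₁ x hx))
      unfold dsq H589.sq
      refine Finset.sum_le_sum fun i _ => ?_
      have q1 : pd i (rp fun x => u x l₀) x = (pd i (fun y => u y l₀) x).re :=
        pd_rp (hul.differentiable (by simp) x) i
      have q2 : pd i u x l₀ = pd i (fun y => u y l₀) x := H158.pd_pi (dfa hu.hu x) i l₀
      have q3 : ‖pd i u x l₀‖ ^ 2 ≤ ∑ l, ‖pd i u x l‖ ^ 2 :=
        Finset.single_le_sum (f := fun l => ‖pd i u x l‖ ^ 2) (fun l _ => sq_nonneg _)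
          (Finset.mem_univ l₀)
      refine le_trans ?_ q3
      rw [q1, q2, ← sq_abs]
      exact pow_le_pow_left₀ (abs_nonneg _) (Complex.abs_re_le_norm _) 2
    have hd' : n * η / μ ≤ 1 := (div_le_one hμ).2 hημ
    have k4 : 0 ≤ (1 - n * η / μ) * (1 - 32 * n * N ^ 2 * P₁ / μ * η) :=
      mul_nonneg (by linarith) (by linarith)
    refine (mul_le_mul_of_nonneg_left k3 k4).trans (k1.trans ?_)
    exact add_le_add (mul_le_mul_of_nonneg_left k2 (by linarith)) le_rfl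
  -- the limit
  have hF : Tendsto (fun η : ℝ => (1 - n * η / μ) * (1 - 32 * n * N ^ 2 * P₁ / μ * η) * a)
      (𝓝[>] 0) (𝓝 a) := by
    have c : Continuous fun η : ℝ => (1 - n * η / μ) * (1 - 32 * n * N ^ 2 * P₁ / μ * η) * a := by
      fun_prop
    have := (c.tendsto 0).mono_left (nhdsWithin_le_nhds (s := Ioi (0 : ℝ)))
    simpa using this
  have hG : Tendsto (fun η : ℝ =>
      (1 + η) * ((1 + n * η / μ) * ((1 + η) * b + 2 * n * N ^ 2 * η * P₂ * Mw)) +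
          2 * n * N ^ 2 * P₁ * (16 * Dw + 2 * Mw) * η) (𝓝[>] 0) (𝓝 b) := by
    have c : Continuous fun η : ℝ =>
      (1 + η) * ((1 + n * η / μ) * ((1 + η) * b + 2 * n * N ^ 2 * η * P₂ * Mw)) +
          2 * n * N ^ 2 * P₁ * (16 * Dw + 2 * Mw) * η := by
      fun_prop
    have := (c.tendsto 0).mono_left (nhdsWithin_le_nhds (s := Ioi (0 : ℝ)))
    simpa using this
  have ev1 : ∀ᶠ η : ℝ in 𝓝[>] 0, n * η < μ := by
    have c : Continuous fun η : ℝ => n * η := by fun_prop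
    have := (c.tendsto 0).mono_left (nhdsWithin_le_nhds (s := Ioi (0 : ℝ)))
    refine this.eventually_lt_const ?_
    simpa using hμ
  have ev2 : ∀ᶠ η : ℝ in 𝓝[>] 0, 32 * n * N ^ 2 * P₁ / μ * η < 1 := by
    have c : Continuous fun η : ℝ => 32 * n * N ^ 2 * P₁ / μ * η := by fun_prop
    have := (c.tendsto 0).mono_left (nhdsWithin_le_nhds (s := Ioi (0 : ℝ)))
    refine this.eventually_lt_const ?_
    simp
  refine le_of_tendsto_of_tendsto hF hG ?_
  filter_upwards [Ioo_mem_nhdsGT (zero_lt_one' ℝ), ev1, ev2] with η h1 h2 h3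
  exact key η h1.1 h1.2.le h2.le h3.le

/-- (EN) the energies of the limits. -/
theorem gen : G.RowEN := by
  intro n N hn hN ρ hρ s₁ s₂ A₁ A₂ ψ₁ ψ₂ μ hs₁ hs₂ hy₁ hy₂ hA₁ hA₂ hψ₁ hψ₂ hμ hm₁ hm₂ l₁ l₂ q₁ q₂
    hD f hf
  obtain ⟨hO, hcore, hfr, -, -, -⟩ := H873.topo ρ hρ
  have hb : Bornology.IsBounded (Om ρ) := H589.bounded_core.subset hcore
  have j₀ : Fin n := ⟨0, by omega⟩
  have l₀ : Fin N := ⟨0, by omega⟩
  have main : ∀ η > 0, ∀ w : V n → Fin N → ℂ, ContDiff ℝ ∞ w → ∃ (s t : MF n) (A B : Cn n N)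
      (u v : V n → Fin N → ℂ), Nr (Om ρ) ψ₁ η w s A u ∧ Nr (Om ρ) ψ₂ η w t B v ∧
        ea (Om ρ) s A u u = ea (Om ρ) t B v v := by
    intro η hη w hw
    obtain ⟨M₁, h1⟩ := l₁ η hη
    obtain ⟨M₂, h2⟩ := l₂ η hη
    obtain ⟨M₃, h3⟩ := q₁ η hη
    obtain ⟨M₄, h4⟩ := q₂ η hη
    set m := max (max M₁ M₂) (max M₃ M₄) with hm
    have e1 : M₁ ≤ m := (le_max_left _ _).trans (le_max_left _ _)
    have e2 : M₂ ≤ m := (le_max_right _ _).trans (le_max_left _ _)
    have e3 : M₃ ≤ m := (le_max_left _ _).trans (le_max_right _ _)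
    have e4 : M₄ ≤ m := (le_max_right _ _).trans (le_max_right _ _)
    obtain ⟨u, hu, hub, hul⟩ := (hD m).2 w hw
    obtain ⟨v, hv, hvb, hvl, hE⟩ := (hD m).1.2 u hu hul
    exact ⟨s₁ m, s₂ m, A₁ m, A₂ m, u, v,
      ⟨hs₁ m, hy₁ m, hA₁ m, h1 m e1, h3 m e3, hu, hub, hul⟩,
      ⟨hs₂ m, hy₂ m, hA₂ m, h2 m e2, h4 m e4, hv, fun x hx => (hvb x hx).trans (hub x hx), hvl⟩,
      hE.symm⟩
  refine le_antisymm ?_ ?_
  · exact half hρ j₀ l₀ hO hb hψ₁ hψ₂ hμ hm₁ hm₂ main hf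
  · refine half hρ j₀ l₀ hO hb hψ₂ hψ₁ hμ hm₂ hm₁ (fun η hη w hw => ?_) hf
    obtain ⟨s, t, A, B, u, v, h1, h2, h3⟩ := main η hη w hw
    exact ⟨t, s, B, A, v, u, h2, h1, h3.symm⟩

end Vale.Agent.P088.H292.GEn
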