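import Vale.Agent.P088.H198.K.Defs
import Vale.Agent.P088.H292.UPush

/-!
# P088, theorem JB, row K_GA: gauge transport, `U = 1` on the boundary
-/

open MeasureTheory Set
open scoped ContDiff Matrix

noncomputable section

namespace Vale.Agent.P088.H292.GA

open Vale.Agent.P088.LR Vale.Agent.P088.LR.H158 Vale.Agent.P088.LR.U Vale.Agent.P088.LR.K
  Vale.Agent.P088.H292.UP

variable {n N : ℕ}

theorem sm_pdmG {P : MC n N} (hP : SmC P) (i : Fin n) : SmC (pdm i P) := by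
  intro a b
  have hfd : ContDiff ℝ ∞ (fderiv ℝ fun y => P y a b) := (hP a b).fderiv_right (by simp)
  exact hfd.clm_apply contDiff_const

theorem sm_mulG {P Q : MC n N} (hP : SmC P) (hQ : SmC Q) : SmC fun x => P x * Q x := by
  intro a b
  simp only [Matrix.mul_apply]
  exact ContDiff.sum fun c _ => (hP a c).mul (hQ c b)

theorem sm_conjG {P : MC n N} (hP : SmC P) : SmC fun x => (P x)ᴴ := fun a b =>
  contDiff_star (hP b a)

/-- Product rule for matrix functions. -/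
theorem pdm_mulG {P Q : MC n N} (hP : SmC P) (hQ : SmC Q) (i : Fin n) (x : V n) :
    pdm i (fun y => P y * Q y) x = pdm i P x * Q x + P x * pdm i Q x := by
  ext a b
  show pd i (fun y => (P y * Q y) a b) x = _
  rw [Matrix.add_apply, Matrix.mul_apply, Matrix.mul_apply, ← Finset.sum_add_distrib]
  have h1 : (fun y => (P y * Q y) a b) = fun y => ∑ c, P y a c * Q y c b := by
    funext y
    rw [Matrix.mul_apply]
  rw [h1]
  unfold pd
  rw [fderiv_fun_sum fun c _ => ((hP a c).mul (hQ c b)).differentiable (by simp) x,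
    ContinuousLinearMap.sum_apply]
  refine Finset.sum_congr rfl fun c _ => ?_
  rw [fderiv_fun_mul ((hP a c).differentiable (by simp) x) ((hQ c b).differentiable (by simp) x)]
  show P x a c * (fderiv ℝ (fun y => Q y c b) x) (Pi.single i 1) +
    Q x c b * (fderiv ℝ (fun y => P y a c) x) (Pi.single i 1) =
    (fderiv ℝ (fun y => P y a c) x) (Pi.single i 1) * Q x c b +
      P x a c * (fderiv ℝ (fun y => Q y c b) x) (Pi.single i 1)
  ring

/-- Product rule for a matrix and a vector function. -/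
theorem pd_mulVecG {P : MC n N} {u : V n → Fin N → ℂ} (hP : SmC P) (hu : ContDiff ℝ ∞ u)
    (i : Fin n) (x : V n) :
    pd i (fun y => P y *ᵥ u y) x = pdm i P x *ᵥ u x + P x *ᵥ pd i u x := by
  funext a
  have hPu : ContDiff ℝ ∞ fun y => P y *ᵥ u y := contDiff_mulVec hP hu
  rw [pd_pi (dfa hPu x) i a, Pi.add_apply]
  have h1 : (fun y => (P y *ᵥ u y) a) = fun y => ∑ c, P y a c * u y c := by
    funext y
    rfl
  rw [h1]
  have h2 : (pdm i P x *ᵥ u x) a = ∑ c, pd i (fun y => P y a c) x * u x c := rfl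
  have h3 : (P x *ᵥ pd i u x) a = ∑ c, P x a c * pd i (fun y => u y c) x := by
    show ∑ c, P x a c * pd i u x c = _
    refine Finset.sum_congr rfl fun c _ => ?_
    rw [pd_pi (dfa hu x) i c]
  rw [h2, h3, ← Finset.sum_add_distrib]
  have huc : ∀ c, ContDiff ℝ ∞ fun y => u y c := contDiff_pi.1 hu
  unfold pd
  rw [fderiv_fun_sum fun c _ => ((hP a c).mul (huc c)).differentiable (by simp) x,
    ContinuousLinearMap.sum_apply]
  refine Finset.sum_congr rfl fun c _ => ?_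
  rw [fderiv_fun_mul ((hP a c).differentiable (by simp) x) ((huc c).differentiable (by simp) x)]
  show P x a c * (fderiv ℝ (fun y => u y c) x) (Pi.single i 1) +
    u x c * (fderiv ℝ (fun y => P y a c) x) (Pi.single i 1) =
    (fderiv ℝ (fun y => P y a c) x) (Pi.single i 1) * u x c +
      P x a c * (fderiv ℝ (fun y => u y c) x) (Pi.single i 1)
  ring

theorem pdm_conjG {P : MC n N} (hP : SmC P) (i : Fin n) (x : V n) :
    pdm i (fun y => (P y)ᴴ) x = (pdm i P x)ᴴ := by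
  ext a b
  show pd i (fun y => star (P y b a)) x = star (pd i (fun y => P y b a) x)
  exact pd_star ((hP b a).differentiable (by simp) x) i

section unit

variable {U : MC n N} (hU : SmC U) (hu1 : ∀ x, (U x)ᴴ * U x = 1)

include hu1 in
theorem mul_conj (x : V n) : U x * (U x)ᴴ = 1 := mul_eq_one_comm.1 (hu1 x)

include hU hu1 in
theorem skew (i : Fin n) (x : V n) : (pdm i U x)ᴴ * U x + (U x)ᴴ * pdm i U x = 0 := by
  have h1 := pdm_mulG (sm_conjG hU) hU i x
  rw [pdm_conjG hU] at h1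
  rw [← h1]
  have h2 : (fun y => (U y)ᴴ * U y) = fun _ => 1 := funext hu1
  rw [h2]
  ext a b
  show pd i (fun _ => (1 : Matrix (Fin N) (Fin N) ℂ) a b) x = 0
  unfold pd
  rw [fderiv_fun_const]
  rfl

include hU hu1 in
theorem smU_gA {A : Cn n N} (hA : SmU A) : SmU (gA U A) := by
  refine ⟨fun i => ?_, fun i x => ?_⟩
  · have h1 := sm_mulG (sm_mulG (sm_conjG hU) (hA.1 i)) hU
    have h2 := sm_mulG (sm_conjG hU) (sm_pdmG hU i)
    exact fun a b => (h1 a b).add (h2 a b)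
  · unfold gA
    rw [Matrix.conjTranspose_add, Matrix.conjTranspose_mul, Matrix.conjTranspose_mul,
      Matrix.conjTranspose_mul, Matrix.conjTranspose_conjTranspose, hA.2]
    have h1 := skew hU hu1 i x
    have h2 : (pdm i U x)ᴴ * U x = -((U x)ᴴ * pdm i U x) := eq_neg_of_add_eq_zero_left h1
    rw [h2, Matrix.neg_mul, Matrix.mul_neg, neg_add, Matrix.mul_assoc]

include hU hu1 in
/-- `D' u = U* D (U u)`. -/
theorem cd_gA (A : Cn n N) {u : V n → Fin N → ℂ} (hu : ContDiff ℝ ∞ u) (i : Fin n) (x : V n) :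
    cd (gA U A) i u x = (U x)ᴴ *ᵥ cd A i (fun y => U y *ᵥ u y) x := by
  unfold cd gA
  rw [pd_mulVecG hU hu, Matrix.mulVec_add, Matrix.mulVec_add, Matrix.mulVec_mulVec,
    Matrix.mulVec_mulVec, hu1 x, Matrix.one_mulVec, Matrix.add_mulVec, Matrix.mulVec_mulVec,
    Matrix.mulVec_mulVec, Matrix.mul_assoc]
  abel

/-- unitary invariance -/
theorem dot_unit {W : Matrix (Fin N) (Fin N) ℂ} (hW : W * Wᴴ = 1) (a b : Fin N → ℂ) :
    (Wᴴ *ᵥ a) ⬝ᵥ star (Wᴴ *ᵥ b) = a ⬝ᵥ star b := by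
  rw [Matrix.star_mulVec, Matrix.conjTranspose_conjTranspose, dotProduct_comm,
    ← Matrix.dotProduct_mulVec, Matrix.mulVec_mulVec, hW, Matrix.one_mulVec, dotProduct_comm]

include hU hu1 in
theorem ea_gA (Ω : Set (V n)) (s : MF n) (A : Cn n N) {u v : V n → Fin N → ℂ}
    (hu : ContDiff ℝ ∞ u) (hv : ContDiff ℝ ∞ v) :
    ea Ω s (gA U A) u v = ea Ω s A (fun y => U y *ᵥ u y) (fun y => U y *ᵥ v y) := by
  unfold ea
  congr 1
  funext x
  refine Finset.sum_congr rfl fun i _ => Finset.sum_congr rfl fun j _ => ?_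
  rw [cd_gA hU hu1 A hu, cd_gA hU hu1 A hv, dot_unit (mul_conj hu1 x)]

include hU hu1 in
theorem lav_gA {s : MF n} (hs : SmM s) {A : Cn n N} (hA : SmU A) {u : V n → Fin N → ℂ}
    (hu : ContDiff ℝ ∞ u) (x : V n) :
    lav s (gA U A) u x = (U x)ᴴ *ᵥ lav s A (fun y => U y *ᵥ u y) x := by
  have hUu : ContDiff ℝ ∞ fun y => U y *ᵥ u y := contDiff_mulVec hU hu
  have hG : ∀ i, ContDiff ℝ ∞ fun y => ∑ j, (s y i j : ℂ) • cd A j (fun y => U y *ᵥ u y) y :=
    fun i => H924.contDiff_Gf hs hA hUu i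
  unfold lav
  have h1 : (U x)ᴴ *ᵥ (∑ i, cd A i (fun y => ∑ j, (s y i j : ℂ) •
      cd A j (fun y => U y *ᵥ u y) y) x) = ∑ i, (U x)ᴴ *ᵥ cd A i (fun y => ∑ j, (s y i j : ℂ) •
      cd A j (fun y => U y *ᵥ u y) y) x := Matrix.mulVec_sum _ _ _
  rw [h1]
  refine Finset.sum_congr rfl fun i _ => ?_
  have h2 : (fun y => ∑ j, (s y i j : ℂ) • cd (gA U A) j u y) = fun y => (U y)ᴴ *ᵥ
      (∑ j, (s y i j : ℂ) • cd A j (fun y => U y *ᵥ u y) y) := by
    funext y
    rw [Matrix.mulVec_sum]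
    refine Finset.sum_congr rfl fun j _ => ?_
    rw [Matrix.mulVec_smul, cd_gA hU hu1 A hu]
  rw [h2, cd_gA hU hu1 A (contDiff_mulVec (sm_conjG hU) (hG i))]
  congr 1
  congr 1
  funext y
  rw [Matrix.mulVec_mulVec, mul_conj hu1, Matrix.one_mulVec]

end unit

/-- **Row K_GA.** -/
theorem ga : RowGA := by
  intro n N s A U hs hsym hA hU hu1
  have hgA := smU_gA hU hu1 hA
  refine ⟨hgA, ?_⟩
  intro Ω hΩ hb hfr s₁ A₁ hs1 hsym1 hA1 hD
  have hUf : ∀ {f : V n → Fin N → ℂ}, ∀ x ∈ frontier Ω, U x *ᵥ f x - f x = 0 := by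
    intro f x hx
    rw [hfr x hx, Matrix.one_mulVec, sub_self]
  refine ⟨?_, ?_⟩
  · intro u v hu hv hu0 hv0
    have hUu : ContDiff ℝ ∞ fun y => U y *ᵥ u y := contDiff_mulVec hU hu
    have hUv : ContDiff ℝ ∞ fun y => U y *ᵥ v y := contDiff_mulVec hU hv
    have hv1 : ∀ x ∈ Ω, lav s A (fun y => U y *ᵥ v y) x = 0 := by
      intro x hx
      have h1 := lav_gA hU hu1 hs hA hv x
      rw [hv0 x hx] at h1
      have h2 : U x *ᵥ ((U x)ᴴ *ᵥ lav s A (fun y => U y *ᵥ v y) x) = U x *ᵥ 0 := by rw [← h1]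
      rwa [Matrix.mulVec_mulVec, mul_conj hu1, Matrix.one_mulVec, Matrix.mulVec_zero] at h2
    have e1 : ea Ω s (gA U A) u v = ea Ω s A (fun y => U y *ᵥ u y) (fun y => U y *ᵥ v y) :=
      ea_gA hU hu1 Ω s A hu hv
    have e2 : ea Ω s A (fun y => U y *ᵥ u y) (fun y => U y *ᵥ v y) =
        ea Ω s A u (fun y => U y *ᵥ v y) := by
      have h1 := wk2 hΩ hb hs hsym hA (φ := fun y => U y *ᵥ u y - u y) hUv (hUu.sub hu) hv1 hUf
      rw [ea_sub_left hb hs hA hUu hu hUv] at h1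
      exact sub_eq_zero.1 h1
    have e3 := hD.1 u _ hu hUv hu0 hv1
    have e4 : ea Ω s₁ A₁ u (fun y => U y *ᵥ v y) = ea Ω s₁ A₁ u v := by
      have h1 := wk1 hΩ hb hs1 hsym1 hA1 (φ := fun y => U y *ᵥ v y - v y) hu (hUv.sub hv) hu0 hUf
      rw [ea_sub_right hb hs1 hA1 hu hUv hv] at h1
      exact sub_eq_zero.1 h1
    rw [e1, e2, ← e3, e4]
  · intro u hu hu0
    obtain ⟨v, hv, hvf, hv0, hve⟩ := hD.2 u hu hu0
    have hUs : SmC fun x => (U x)ᴴ := sm_conjG hU
    have hv' : ContDiff ℝ ∞ fun y => (U y)ᴴ *ᵥ v y := contDiff_mulVec hUs hv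
    have hUU : (fun y => U y *ᵥ ((U y)ᴴ *ᵥ v y)) = v := by
      funext y
      rw [Matrix.mulVec_mulVec, mul_conj hu1, Matrix.one_mulVec]
    refine ⟨fun y => (U y)ᴴ *ᵥ v y, hv', fun x hx => ?_, fun x hx => ?_, ?_⟩
    · show (U x)ᴴ *ᵥ v x = u x
      rw [hfr x hx, Matrix.conjTranspose_one, Matrix.one_mulVec, hvf x hx]
    · rw [lav_gA hU hu1 hs hA hv' x, hUU, hv0 x hx, Matrix.mulVec_zero]
    · rw [ea_gA hU hu1 Ω s A hv' hv', hUU]
      exact hve

end Vale.Agent.P088.H292.GA
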